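import Crest.Agent.R322.Core

/-! One block of samples costs a bounded factor in the Frostman constant (row 322). -/

set_option autoImplicit false

namespace Crest.Agent.R322

open MeasureTheory ProbabilityTheory Set Metric
open scoped RealInnerProductSpace ENNReal NNReal
open Crest.StreamLearn

variable {d k : ℕ}

theorem measurable_gam_section {F : Set ((Fin k → E d) × (Fin k → ℝ))} (hF : MeasurableSet F) :
    Measurable fun s : E d => gam d k {X | (X, meas X s) ∈ F} := by
  have hm : Measurable fun p : E d × (Fin k → E d) => (p.2, meas p.2 p.1) :=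
    measurable_snd.prodMk continuous_meas.measurable
  exact measurable_measure_prodMk_left (ν := gam d k) (hm hF)

/-- The affine change of the measurement vector attached to the ball `B(c, r)`. -/
noncomputable def Psi (c : E d) (r : ℝ) (p : (Fin k → E d) × (Fin k → ℝ)) :
    (Fin k → E d) × (Fin k → ℝ) := (p.1, meas p.1 c + r • p.2)

theorem measurable_Psi (c : E d) (r : ℝ) :
    Measurable (Psi c r : (Fin k → E d) × (Fin k → ℝ) → _) := by
  unfold Psi meas; fun_prop

theorem core_ball (κ : Measure (E d)) [SFinite κ] {l q : ℕ} {K : ℝ} (hK : 0 < K)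
    (hκ : Frost κ K l) (hl : q + k + 1 ≤ l) (hq : 2 * (q + 1) ≤ d) (hk : k ≤ d)
    (lam : ℝ) (hlam : 0 < lam) (c : E d) (r : ℝ) (hr : 0 < r)
    {F : Set ((Fin k → E d) × (Fin k → ℝ))} (hF : MeasurableSet F) :
    ∫⁻ s in closedBall c r, gam d k {X | (X, meas X s) ∈ F} ∂κ ≤
      ENNReal.ofReal (K * r ^ l) * (ENNReal.ofReal lam * nu d k (Psi c r ⁻¹' F) +
        (2 ^ d) ^ k * ENNReal.ofReal (Cc d k q l / lam) ^ (q + 1)) := by
  set a := ENNReal.ofReal (K * r ^ l) with ha
  have ha0 : a ≠ 0 := by simpa [ha] using mul_pos hK (pow_pos hr l)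
  have hat : a ≠ ⊤ := ENNReal.ofReal_ne_top
  set φ : E d → E d := fun s => r⁻¹ • (s - c) with hφ
  have hφm : Measurable φ := by unfold φ; fun_prop
  set κ' : Measure (E d) := a⁻¹ • (κ.restrict (closedBall c r)).map φ with hκ'
  have hF' : Frost κ' 1 l := by
    intro x ρ hρ
    rw [hκ', Measure.smul_apply, Measure.map_apply hφm measurableSet_closedBall, smul_eq_mul]
    have h1 : (κ.restrict (closedBall c r)) (φ ⁻¹' closedBall x ρ) ≤
        κ (closedBall (c + r • x) (r * ρ)) := by
      refine (Measure.restrict_le_self _).trans (measure_mono fun s hs => ?_)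
      simp only [mem_preimage, mem_closedBall, dist_eq_norm, hφ] at hs ⊢
      have : s - (c + r • x) = r • (r⁻¹ • (s - c) - x) := by
        rw [smul_sub, smul_smul, mul_inv_cancel₀ hr.ne', one_smul]; abel
      rw [this, norm_smul, Real.norm_eq_abs, abs_of_pos hr]
      gcongr
    have h2 := h1.trans (hκ _ _ (mul_pos hr hρ))
    rw [mul_pow, ← mul_assoc, ENNReal.ofReal_mul (by positivity), ← ha] at h2
    calc _ ≤ a⁻¹ * (a * ENNReal.ofReal (ρ ^ l)) := by gcongr
      _ = _ := by rw [← mul_assoc, ENNReal.inv_mul_cancel ha0 hat, one_mul, one_mul]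
  have hsupp : κ' (closedBall 0 1)ᶜ = 0 := by
    rw [hκ', Measure.smul_apply, Measure.map_apply hφm measurableSet_closedBall.compl,
      Measure.restrict_apply (hφm measurableSet_closedBall.compl)]
    have : φ ⁻¹' (closedBall 0 1)ᶜ ∩ closedBall c r = ∅ := by
      ext s
      simp only [mem_inter_iff, mem_preimage, mem_compl_iff, mem_closedBall, dist_eq_norm, hφ,
        sub_zero, mem_empty_iff_false, iff_false, not_and]
      intro h1 h2
      apply h1
      rw [norm_smul, Real.norm_eq_abs, abs_of_pos (inv_pos.2 hr), inv_mul_le_iff₀ hr, mul_one]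
      exact h2
    rw [this]; simp
  have hcore := core κ' hF' hsupp hl hq hk lam hlam (Psi c r ⁻¹' F)
  rw [mu_apply κ' (measurable_Psi c r hF), hκ', lintegral_smul_measure,
    lintegral_map (measurable_gam_section (measurable_Psi c r hF)) hφm, smul_eq_mul] at hcore
  have hsame : ∀ s : E d, {X : Fin k → E d | (X, meas X (φ s)) ∈ Psi c r ⁻¹' F} =
      {X | (X, meas X s) ∈ F} := by
    intro s
    ext X
    simp only [mem_ofPred_eq, mem_preimage, Psi]
    have : meas X c + r • meas X (φ s) = meas X s := by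
      ext j
      simp only [meas, hφ, Pi.add_apply, Pi.smul_apply, smul_eq_mul, real_inner_smul_right,
        inner_sub_right]
      field_simp
      ring
    rw [this]
  simp only [hsame] at hcore
  calc _ = a * (a⁻¹ * ∫⁻ s in closedBall c r, gam d k {X | (X, meas X s) ∈ F} ∂κ) := by
        rw [← mul_assoc, ENNReal.mul_inv_cancel ha0 hat, one_mul]
    _ ≤ _ := by gcongr

/-- One block. -/
theorem block (σ : Measure (E d)) [SFinite σ] {O : Type} {l q : ℕ} {K : ℝ} (hK : 0 < K)
    (hl : q + k + 1 ≤ l) (hq : 2 * (q + 1) ≤ d) (hk : k ≤ d) (lam : ℝ) (hlam : 0 < lam)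
    (β : (Fin k → E d) × (Fin k → ℝ) → O) (S : Finset O) (hS : ∀ p, β p ∈ S)
    (hβ : ∀ o, MeasurableSet (β ⁻¹' {o})) (U : O → E d → ℝ≥0∞) (hU : ∀ o, Measurable (U o))
    (hF : ∀ o, Frost (σ.withDensity (U o)) K l) (N : ℝ) (hN : (S.card : ℝ) ≤ N) :
    Frost (σ.withDensity fun s => ∫⁻ X, U (β (X, meas X s)) s ∂(gam d k))
      (K * (lam + N * ((2 ^ d) ^ k * (Cc d k q l / lam) ^ (q + 1)))) l := by
  classical
  intro c r hr
  have hCc : 0 ≤ Cc d k q l / lam := by unfold Cc; positivity
  have hN0 : 0 ≤ N := le_trans (Nat.cast_nonneg _) hN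
  have hV : ∀ s : E d, ∫⁻ X, U (β (X, meas X s)) s ∂(gam d k) =
      ∑ o ∈ S, U o s * gam d k {X | (X, meas X s) ∈ β ⁻¹' {o}} := by
    intro s
    have hm : ∀ o, MeasurableSet {X : Fin k → E d | (X, meas X s) ∈ β ⁻¹' {o}} := by
      intro o
      have hf : Measurable fun X : Fin k → E d => (X, meas X s) := by unfold meas; fun_prop
      exact hf (hβ o)
    simp_rw [← lintegral_indicator_const (hm _)]
    rw [← lintegral_finsetSum _ fun o _ => measurable_const.indicator (hm o)]
    congr 1
    ext X
    rw [Finset.sum_eq_single_of_mem (β (X, meas X s)) (hS _)]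
    · rw [indicator_of_mem]; rfl
    · intro o _ ho
      rw [indicator_of_notMem]
      exact fun h => ho (Eq.symm h)
  set b : ℝ≥0∞ := (2 ^ d) ^ k * ENNReal.ofReal (Cc d k q l / lam) ^ (q + 1) with hb
  rw [withDensity_apply _ measurableSet_closedBall]
  simp_rw [hV]
  rw [lintegral_finsetSum (f := fun o s => U o s * gam d k {X | (X, meas X s) ∈ β ⁻¹' {o}}) _
    fun o _ => (hU o).mul (measurable_gam_section (hβ o))]
  calc ∑ o ∈ S, ∫⁻ s in closedBall c r, U o s * gam d k {X | (X, meas X s) ∈ β ⁻¹' {o}} ∂σ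
      ≤ ∑ o ∈ S, ENNReal.ofReal (K * r ^ l) *
          (ENNReal.ofReal lam * nu d k ((β ∘ Psi c r) ⁻¹' {o}) + b) := by
        refine Finset.sum_le_sum fun o _ => ?_
        have := core_ball (σ.withDensity (U o)) hK (hF o) hl hq hk lam hlam c r hr (hβ o)
        rw [setLIntegral_withDensity_eq_setLIntegral_mul _ (hU o) (measurable_gam_section (hβ o))
          measurableSet_closedBall] at this
        exact this
    _ = ENNReal.ofReal (K * r ^ l) *
          (ENNReal.ofReal lam * nu d k ((β ∘ Psi c r) ⁻¹' S) + S.card * b) := by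
        rw [← Finset.mul_sum, Finset.sum_add_distrib, ← Finset.mul_sum,
          sum_measure_preimage_singleton S (f := β ∘ Psi c r) fun o _ => measurable_Psi c r (hβ o)]
        simp
    _ ≤ ENNReal.ofReal (K * r ^ l) * (ENNReal.ofReal lam * 1 + ENNReal.ofReal N * b) := by
        gcongr
        · exact (measure_mono (subset_univ _)).trans (nu_univ (by omega))
        · rw [← ENNReal.ofReal_natCast]; exact ENNReal.ofReal_le_ofReal hN
    _ = _ := by
        have : b = ENNReal.ofReal ((2 ^ d) ^ k * (Cc d k q l / lam) ^ (q + 1)) := by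
          rw [hb, ENNReal.ofReal_mul (by positivity), ENNReal.ofReal_pow hCc,
            ENNReal.ofReal_pow (by positivity), ENNReal.ofReal_pow (by positivity)]
          simp
        rw [this, mul_one, ← ENNReal.ofReal_mul hN0,
          ← ENNReal.ofReal_add hlam.le (by positivity), ← ENNReal.ofReal_mul (by positivity)]
        congr 1
        ring

end Crest.Agent.R322
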