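import Crest.Agent.R322.Vol

/-! The core lemma: joint law of samples and measurements against a reference measure (row 322). -/

set_option autoImplicit false

namespace Crest.Agent.R322

open MeasureTheory ProbabilityTheory Set Metric
open scoped RealInnerProductSpace ENNReal NNReal
open Crest.StreamLearn

variable {d k : ℕ}

/-- The measurement vector. -/
noncomputable def meas (X : Fin k → E d) (s : E d) : Fin k → ℝ := fun j => ⟪X j, s⟫

theorem continuous_meas : Continuous fun p : E d × (Fin k → E d) => meas p.2 p.1 := by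
  unfold meas; fun_prop

/-- The reference measure. -/
noncomputable def nu (d k : ℕ) : Measure ((Fin k → E d) × (Fin k → ℝ)) :=
  ((gam d k).prod volume).withDensity
    ((Yset d k).indicator fun p => (ENNReal.ofReal (Dn p.1))⁻¹)

theorem measurable_nu_dens : Measurable
    ((Yset d k).indicator fun p : (Fin k → E d) × (Fin k → ℝ) => (ENNReal.ofReal (Dn p.1))⁻¹) :=
  ((continuous_Dn.comp continuous_fst).measurable.ennreal_ofReal.inv).indicator
    isClosed_Yset.measurableSet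

theorem nu_univ (hd : 0 < d) : nu d k univ ≤ 1 := by
  rw [nu, withDensity_apply _ MeasurableSet.univ, Measure.restrict_univ,
    lintegral_prod _ measurable_nu_dens.aemeasurable]
  calc _ ≤ ∫⁻ _X, 1 ∂(gam d k) := lintegral_mono fun X => ?_
    _ = 1 := by simp
  have hmY : MeasurableSet (Prod.mk X ⁻¹' Yset d k) :=
    measurable_prodMk_left isClosed_Yset.measurableSet
  have : ∀ y, ((Yset d k).indicator fun p : (Fin k → E d) × (Fin k → ℝ) =>
      (ENNReal.ofReal (Dn p.1))⁻¹) (X, y) =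
      (Prod.mk X ⁻¹' Yset d k).indicator (fun _ => (ENNReal.ofReal (Dn X))⁻¹) y := fun y => rfl
  simp only [this]
  rw [lintegral_indicator_const hmY]
  calc _ ≤ (ENNReal.ofReal (Dn X))⁻¹ * ENNReal.ofReal (Dn X) := by
        gcongr; exact volume_Yset hd X
    _ = 1 := ENNReal.inv_mul_cancel (by simpa using Dn_pos X) ENNReal.ofReal_ne_top

/-- The joint law of samples and measurements for a signal drawn from `κ`. -/
noncomputable def mu (κ : Measure (E d)) (k : ℕ) : Measure ((Fin k → E d) × (Fin k → ℝ)) :=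
  (κ.prod (gam d k)).map fun p => (p.2, meas p.2 p.1)

theorem mu_apply (κ : Measure (E d)) [SFinite κ] {F : Set ((Fin k → E d) × (Fin k → ℝ))}
    (hF : MeasurableSet F) : mu κ k F = ∫⁻ s, gam d k {X | (X, meas X s) ∈ F} ∂κ := by
  have hm : Measurable fun p : E d × (Fin k → E d) => (p.2, meas p.2 p.1) :=
    measurable_snd.prodMk continuous_meas.measurable
  rw [mu, Measure.map_apply hm hF, Measure.prod_apply (hm hF)]
  rfl

/-- The constant of the core lemma. -/
noncomputable def Cc (d k q l : ℕ) : ℝ := Real.exp (2 * d) * 2 ^ k * 2 ^ k * (2 * 2 ^ q * 4 ^ l)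

theorem Dn_pow_le {q : ℕ} (hq : 2 * (q + 1) ≤ d) (X : Fin k → E d) :
    ENNReal.ofReal (Dn X) ^ (q + 1) ≤
      ENNReal.ofReal (Real.exp (2 * d) * 2 ^ k) ^ (q + 1) * ∏ j, wt (X j) := by
  have hd : (0 : ℝ) < d := by exact_mod_cast (by omega : 0 < d)
  unfold Dn wt
  rw [ENNReal.ofReal_mul (by positivity), mul_pow,
    ← ENNReal.ofReal_prod_of_nonneg fun i _ => (Real.exp_pos _).le, ← Real.exp_sum,
    ← ENNReal.ofReal_pow (Real.exp_pos _).le (q + 1), ← Real.exp_nat_mul, ← Finset.sum_div]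
  gcongr
  have h0 : 0 ≤ ∑ j, ‖X j‖ ^ 2 := Finset.sum_nonneg fun j _ => sq_nonneg _
  have hq' : 2 * ((q + 1 : ℕ) : ℝ) ≤ d := by exact_mod_cast hq
  rw [← mul_div_assoc, div_le_div_iff₀ (by positivity) (by norm_num)]
  nlinarith

theorem bad_le (κ : Measure (E d)) [SFinite κ] {l q : ℕ} (hκ : Frost κ 1 l)
    (hsupp : κ (closedBall 0 1)ᶜ = 0) (hl : q + k + 1 ≤ l) (hq : 2 * (q + 1) ≤ d)
    (s : E d) (hs : ‖s‖ ≤ 1) (η : ℝ) (hη : 0 < η) (lam : ℝ) (hlam : 0 < lam) :
    gam d k {X | ENNReal.ofReal (lam * (2 * η) ^ k) < κ (near (2 * η) s X) * ENNReal.ofReal (Dn X)}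
      ≤ (2 ^ d) ^ k * ENNReal.ofReal (Cc d k q l / lam) ^ (q + 1) := by
  set a := ENNReal.ofReal (lam * (2 * η) ^ k) with ha
  have ha0 : a ≠ 0 := by simpa [ha] using mul_pos hlam (pow_pos (by positivity) k)
  have hat : a ≠ ⊤ := ENNReal.ofReal_ne_top
  have hm : Measurable fun X : Fin k → E d => κ (near (2 * η) s X) * ENNReal.ofReal (Dn X) :=
    (measurable_near' κ _ s).mul continuous_Dn.measurable.ennreal_ofReal
  have h1 : a ^ (q + 1) *
      gam d k {X | a < κ (near (2 * η) s X) * ENNReal.ofReal (Dn X)} ≤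
      ∫⁻ X, (κ (near (2 * η) s X) * ENNReal.ofReal (Dn X)) ^ (q + 1) ∂(gam d k) := by
    refine le_trans ?_ (mul_meas_ge_le_lintegral (hm.pow_const (q + 1)) (a ^ (q + 1)))
    gcongr with X
    intro hX
    exact pow_le_pow_left' (le_of_lt hX) _
  have h2 : ∫⁻ X, (κ (near (2 * η) s X) * ENNReal.ofReal (Dn X)) ^ (q + 1) ∂(gam d k) ≤
      ENNReal.ofReal (Real.exp (2 * d) * 2 ^ k) ^ (q + 1) * ((2 ^ d) ^ k *
        (ENNReal.ofReal (2 * (2 * η)) ^ k * ENNReal.ofReal (2 * 2 ^ q * 4 ^ l)) ^ (q + 1)) := by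
    refine le_trans ?_ (mul_le_mul_right (moment κ hκ hsupp hl s hs (2 * η) (by positivity)) _)
    rw [← lintegral_const_mul' _ _ (ENNReal.pow_ne_top ENNReal.ofReal_ne_top)]
    refine lintegral_mono fun X => ?_
    rw [mul_pow, ← mul_assoc, mul_comm]
    gcongr
    exact Dn_pow_le hq X
  have h3 : ENNReal.ofReal (Real.exp (2 * d) * 2 ^ k) *
      (ENNReal.ofReal (2 * (2 * η)) ^ k * ENNReal.ofReal (2 * 2 ^ q * 4 ^ l)) =
      a * ENNReal.ofReal (Cc d k q l / lam) := by
    rw [ha, ← ENNReal.ofReal_pow (by positivity), ← ENNReal.ofReal_mul (by positivity),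
      ← ENNReal.ofReal_mul (by positivity), ← ENNReal.ofReal_mul (by positivity)]
    congr 1
    unfold Cc
    rw [mul_pow 2 (2 * η)]
    field_simp
  have h4 : a ^ (q + 1) *
      gam d k {X | a < κ (near (2 * η) s X) * ENNReal.ofReal (Dn X)} ≤
      a ^ (q + 1) * ((2 ^ d) ^ k * ENNReal.ofReal (Cc d k q l / lam) ^ (q + 1)) := by
    refine (h1.trans h2).trans (le_of_eq ?_)
    rw [mul_left_comm, ← mul_pow, h3, mul_pow]
    ring
  exact (ENNReal.mul_le_mul_iff_right (pow_ne_zero _ ha0) (ENNReal.pow_ne_top hat)).1 h4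

theorem good_le (κ : Measure (E d)) [SFinite κ] (hk : k ≤ d)
    (hsupp : κ (closedBall 0 1)ᶜ = 0) (η : ℝ) (hη : 0 < η) (hη1 : η ≤ 1) (lam : ℝ) (hlam : 0 < lam)
    {F G : Set ((Fin k → E d) × (Fin k → ℝ))} (hF : MeasurableSet F) (hG : MeasurableSet G)
    (hGF : ∀ p ∈ G, ∀ y ∈ closedBall p.2 η, (p.1, y) ∈ F) :
    ∫⁻ s, gam d k {X | ¬ ENNReal.ofReal (lam * (2 * η) ^ k) <
      κ (near (2 * η) s X) * ENNReal.ofReal (Dn X) ∧ (X, meas X s) ∈ G} ∂κ ≤
      ENNReal.ofReal lam * nu d k F := by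
  set a := ENNReal.ofReal (lam * (2 * η) ^ k) with ha
  set c := ENNReal.ofReal ((2 * η) ^ k) with hc
  have hc0 : c ≠ 0 := by simpa [hc] using pow_pos (by positivity : 0 < 2 * η) k
  have hct : c ≠ ⊤ := ENNReal.ofReal_ne_top
  have hm : Measurable fun p : E d × (Fin k → E d) =>
      κ (near (2 * η) p.1 p.2) * ENNReal.ofReal (Dn p.2) :=
    (measurable_near κ _).mul (continuous_Dn.comp continuous_snd).measurable.ennreal_ofReal
  have hgood : MeasurableSet {p : E d × (Fin k → E d) |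
      ¬ a < κ (near (2 * η) p.1 p.2) * ENNReal.ofReal (Dn p.2)} :=
    (measurableSet_lt measurable_const hm).compl
  set Gd := {p : E d × (Fin k → E d) |
      ¬ a < κ (near (2 * η) p.1 p.2) * ENNReal.ofReal (Dn p.2)} with hGd
  set A : Set (E d × ((Fin k → E d) × (Fin k → ℝ))) :=
    {p | ‖p.1‖ ≤ 1 ∧ (p.1, p.2.1) ∈ Gd ∧ dist p.2.2 (meas p.2.1 p.1) ≤ η ∧ p.2 ∈ F} with hA
  have hAm : MeasurableSet A := by
    have h1 : IsClosed {p : E d × ((Fin k → E d) × (Fin k → ℝ)) | ‖p.1‖ ≤ 1} :=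
      isClosed_le (by fun_prop) continuous_const
    have h2 : MeasurableSet {p : E d × ((Fin k → E d) × (Fin k → ℝ)) | (p.1, p.2.1) ∈ Gd} := by
      have hf : Measurable fun p : E d × ((Fin k → E d) × (Fin k → ℝ)) => (p.1, p.2.1) := by
        fun_prop
      exact hf hgood
    have h3 : IsClosed {p : E d × ((Fin k → E d) × (Fin k → ℝ)) |
        dist p.2.2 (meas p.2.1 p.1) ≤ η} := by
      unfold meas
      exact isClosed_le (by fun_prop) continuous_const
    exact h1.measurableSet.inter (h2.inter (h3.measurableSet.inter (measurable_snd hF)))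
  have hae : ∀ᵐ s ∂κ, ‖s‖ ≤ 1 := by
    rw [ae_iff]
    convert hsupp using 2
    ext s; simp
  have hlow : ∀ s : E d, ‖s‖ ≤ 1 → c * gam d k {X | (s, X) ∈ Gd ∧ (X, meas X s) ∈ G} ≤
      ((gam d k).prod volume) (Prod.mk s ⁻¹' A) := by
    intro s hs
    have hS : MeasurableSet {X : Fin k → E d | (s, X) ∈ Gd ∧ (X, meas X s) ∈ G} := by
      refine MeasurableSet.inter (measurable_prodMk_left hgood) ?_
      have hf : Measurable fun X : Fin k → E d => (X, meas X s) := by unfold meas; fun_prop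
      exact hf hG
    rw [Measure.prod_apply (measurable_prodMk_left hAm), ← lintegral_indicator_const hS]
    refine lintegral_mono fun X => ?_
    by_cases hX : X ∈ {X : Fin k → E d | (s, X) ∈ Gd ∧ (X, meas X s) ∈ G}
    · rw [indicator_of_mem hX]
      have : c = volume (closedBall (meas X s) η) := by
        rw [Real.volume_pi_closedBall _ hη.le, Fintype.card_fin]
      rw [this]
      refine measure_mono fun y hy => ?_
      exact ⟨hs, hX.1, hy, hGF _ hX.2 y hy⟩
    · rw [indicator_of_notMem hX]; exact zero_le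
  have hup : ∀ p : (Fin k → E d) × (Fin k → ℝ), κ ((fun s => (s, p)) ⁻¹' A) ≤
      a * F.indicator ((Yset d k).indicator fun p => (ENNReal.ofReal (Dn p.1))⁻¹) p := by
    intro p
    rcases eq_empty_or_nonempty ((fun s => (s, p)) ⁻¹' A) with h | ⟨s₀, hs₀, hg, hdist, hpF⟩
    · simp [h]
    have hY : p ∈ Yset d k := by
      refine mem_Yset hk p.1 p.2 s₀ hs₀ fun j => ?_
      have := (dist_le_pi_dist p.2 (meas p.1 s₀) j).trans (hdist.trans hη1)
      rwa [Real.dist_eq] at this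
    rw [indicator_of_mem hpF, indicator_of_mem hY]
    have hsub : (fun s => (s, p)) ⁻¹' A ⊆ near (2 * η) s₀ p.1 := by
      rintro s ⟨-, -, hdist', -⟩ j
      have h1 := (dist_le_pi_dist p.2 (meas p.1 s₀) j).trans hdist
      have h2 := (dist_le_pi_dist p.2 (meas p.1 s) j).trans hdist'
      rw [Real.dist_eq, abs_le] at h1 h2
      simp only [meas] at h1 h2
      rw [inner_sub_right, abs_le]
      constructor <;> linarith [h1.1, h1.2, h2.1, h2.2]
    refine (measure_mono hsub).trans ?_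
    have hg' : κ (near (2 * η) s₀ p.1) * ENNReal.ofReal (Dn p.1) ≤ a := not_lt.1 hg
    rw [← div_eq_mul_inv]
    exact (ENNReal.le_div_iff_mul_le (Or.inl (by simpa using Dn_pos p.1))
      (Or.inl ENNReal.ofReal_ne_top)).2 hg'
  have hmain : c * ∫⁻ s, gam d k {X | (s, X) ∈ Gd ∧ (X, meas X s) ∈ G} ∂κ ≤
      c * (ENNReal.ofReal lam * nu d k F) := by
    calc c * ∫⁻ s, gam d k {X | (s, X) ∈ Gd ∧ (X, meas X s) ∈ G} ∂κ
        = ∫⁻ s, c * gam d k {X | (s, X) ∈ Gd ∧ (X, meas X s) ∈ G} ∂κ :=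
          (lintegral_const_mul' _ _ hct).symm
      _ ≤ ∫⁻ s, ((gam d k).prod volume) (Prod.mk s ⁻¹' A) ∂κ :=
          lintegral_mono_ae (hae.mono hlow)
      _ = (κ.prod ((gam d k).prod volume)) A := (Measure.prod_apply hAm).symm
      _ = ∫⁻ p, κ ((fun s => (s, p)) ⁻¹' A) ∂((gam d k).prod volume) := Measure.prod_apply_symm hAm
      _ ≤ ∫⁻ p, a * F.indicator ((Yset d k).indicator fun p => (ENNReal.ofReal (Dn p.1))⁻¹) p
            ∂((gam d k).prod volume) := lintegral_mono hup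
      _ = a * nu d k F := by
          rw [lintegral_const_mul' _ _ ENNReal.ofReal_ne_top, lintegral_indicator hF, nu,
            withDensity_apply _ hF]
      _ = c * (ENNReal.ofReal lam * nu d k F) := by
          rw [ha, ENNReal.ofReal_mul hlam.le, ← hc]; ring
  exact (ENNReal.mul_le_mul_iff_right hc0 hct).1 hmain

theorem core_mollified (κ : Measure (E d)) [SFinite κ] {l q : ℕ} (hκ : Frost κ 1 l)
    (hsupp : κ (closedBall 0 1)ᶜ = 0) (hl : q + k + 1 ≤ l) (hq : 2 * (q + 1) ≤ d) (hk : k ≤ d)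
    (η : ℝ) (hη : 0 < η) (hη1 : η ≤ 1) (lam : ℝ) (hlam : 0 < lam)
    {F G : Set ((Fin k → E d) × (Fin k → ℝ))} (hF : MeasurableSet F) (hG : MeasurableSet G)
    (hGF : ∀ p ∈ G, ∀ y ∈ closedBall p.2 η, (p.1, y) ∈ F) :
    mu κ k G ≤ ENNReal.ofReal lam * nu d k F +
      (2 ^ d) ^ k * ENNReal.ofReal (Cc d k q l / lam) ^ (q + 1) := by
  have hae : ∀ᵐ s ∂κ, ‖s‖ ≤ 1 := by
    rw [ae_iff]
    convert hsupp using 2
    ext s; simp
  have huniv : κ univ ≤ 1 := by
    have h1 := hκ 0 1 one_pos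
    rw [← union_compl_self (closedBall (0 : E d) 1)]
    refine (measure_union_le _ _).trans ?_
    simpa [hsupp] using h1
  set b := (2 ^ d : ℝ≥0∞) ^ k * ENNReal.ofReal (Cc d k q l / lam) ^ (q + 1)
  rw [mu_apply κ hG]
  calc ∫⁻ s, gam d k {X | (X, meas X s) ∈ G} ∂κ
      ≤ ∫⁻ s, gam d k {X | ¬ ENNReal.ofReal (lam * (2 * η) ^ k) <
          κ (near (2 * η) s X) * ENNReal.ofReal (Dn X) ∧ (X, meas X s) ∈ G} + b ∂κ := by
        refine lintegral_mono_ae (hae.mono fun s hs => ?_)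
        refine le_trans ?_ (add_le_add_right (bad_le κ hκ hsupp hl hq s hs η hη lam hlam) _)
        refine le_trans (measure_mono fun X hX => ?_) (measure_union_le _ _)
        by_cases h : ENNReal.ofReal (lam * (2 * η) ^ k) <
          κ (near (2 * η) s X) * ENNReal.ofReal (Dn X)
        · exact Or.inr h
        · exact Or.inl ⟨h, hX⟩
    _ = (∫⁻ s, gam d k {X | ¬ ENNReal.ofReal (lam * (2 * η) ^ k) <
          κ (near (2 * η) s X) * ENNReal.ofReal (Dn X) ∧ (X, meas X s) ∈ G} ∂κ) + b * κ univ := by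
        rw [lintegral_add_right _ measurable_const, lintegral_const]
    _ ≤ _ := add_le_add (good_le κ hk hsupp η hη hη1 lam hlam hF hG hGF)
        (mul_le_of_le_one_right' huniv)

theorem core_open (κ : Measure (E d)) [SFinite κ] {l q : ℕ} (hκ : Frost κ 1 l)
    (hsupp : κ (closedBall 0 1)ᶜ = 0) (hl : q + k + 1 ≤ l) (hq : 2 * (q + 1) ≤ d) (hk : k ≤ d)
    (lam : ℝ) (hlam : 0 < lam) {F : Set ((Fin k → E d) × (Fin k → ℝ))} (hF : IsOpen F) :
    mu κ k F ≤ ENNReal.ofReal lam * nu d k F +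
      (2 ^ d) ^ k * ENNReal.ofReal (Cc d k q l / lam) ^ (q + 1) := by
  let G : ℕ → Set ((Fin k → E d) × (Fin k → ℝ)) := fun n =>
    {p | ∀ p' ∈ Fᶜ, 2 / ((n : ℝ) + 1) ≤ dist p' p}
  have hGc : ∀ n, IsClosed (G n) := by
    intro n
    have : G n = ⋂ p' ∈ Fᶜ, {p | 2 / ((n : ℝ) + 1) ≤ dist p' p} := by
      ext p; simp [G]
    rw [this]
    exact isClosed_biInter fun p' _ => isClosed_le continuous_const (by fun_prop)
  have hmono : Monotone G := by
    intro n m hnm p hp p' hp'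
    refine le_trans ?_ (hp p' hp')
    gcongr
  have hcov : F ⊆ ⋃ n, G n := by
    intro p hp
    obtain ⟨r, hr, hball⟩ := Metric.isOpen_iff.1 hF p hp
    obtain ⟨n, hn⟩ := exists_nat_one_div_lt (half_pos hr)
    refine mem_iUnion.2 ⟨n, fun p' hp' => ?_⟩
    by_contra h
    refine hp' (hball ?_)
    rw [mem_ball]
    have : 2 / ((n : ℝ) + 1) = 2 * (1 / ((n : ℝ) + 1)) := by ring
    linarith [not_le.1 h]
  refine (measure_mono hcov).trans ?_
  rw [hmono.measure_iUnion]
  refine iSup_le fun n => ?_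
  have hη : (0 : ℝ) < 1 / ((n : ℝ) + 1) := by positivity
  refine core_mollified κ hκ hsupp hl hq hk (1 / ((n : ℝ) + 1)) hη ?_ lam hlam hF.measurableSet
    (hGc n).measurableSet fun p hp y hy => ?_
  · rw [div_le_one (by positivity)]
    linarith [(Nat.cast_nonneg n : (0 : ℝ) ≤ n)]
  · by_contra h
    have h1 := hp (p.1, y) h
    have h2 : dist (p.1, y) p = dist y p.2 := by
      rw [Prod.dist_eq]; simp
    rw [mem_closedBall] at hy
    have : 2 / ((n : ℝ) + 1) = 2 * (1 / ((n : ℝ) + 1)) := by ring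
    linarith

/-- The core lemma. -/
theorem core (κ : Measure (E d)) [SFinite κ] {l q : ℕ} (hκ : Frost κ 1 l)
    (hsupp : κ (closedBall 0 1)ᶜ = 0) (hl : q + k + 1 ≤ l) (hq : 2 * (q + 1) ≤ d) (hk : k ≤ d)
    (lam : ℝ) (hlam : 0 < lam) (F : Set ((Fin k → E d) × (Fin k → ℝ))) :
    mu κ k F ≤ ENNReal.ofReal lam * nu d k F +
      (2 ^ d) ^ k * ENNReal.ofReal (Cc d k q l / lam) ^ (q + 1) := by
  have : IsFiniteMeasure (nu d k) := ⟨(nu_univ (by omega)).trans_lt ENNReal.one_lt_top⟩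
  set ν' := (Real.toNNReal lam) • nu d k with hν'
  have h1 : ∀ U, ν' U = ENNReal.ofReal lam * nu d k U := fun U => rfl
  rw [← h1, F.measure_eq_iInf_isOpen ν']
  simp only [ENNReal.iInf_add]
  refine le_iInf fun U => le_iInf fun hU => le_iInf fun hUo => ?_
  rw [h1]
  exact (measure_mono hU).trans (core_open κ hκ hsupp hl hq hk lam hlam hUo)

end Crest.Agent.R322
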