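import Mathlib
import Crest.Prelude.Def_StreamLearn

/-! Gaussian facts for row 322: product formula, splitting along a direction, tilted small-ball step. -/

set_option autoImplicit false

namespace Crest.Agent.R322

open MeasureTheory ProbabilityTheory Set
open scoped RealInnerProductSpace ENNReal NNReal
open Crest.StreamLearn

theorem lintegral_cons {n : ℕ} {α : Type} [MeasurableSpace α] (μ : Measure α) [SigmaFinite μ]
    (f : (Fin (n + 1) → α) → ℝ≥0∞) (hf : Measurable f) :
    ∫⁻ x, f x ∂(Measure.pi fun _ : Fin (n + 1) => μ) =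
      ∫⁻ a, ∫⁻ y, f (Fin.cons a y) ∂(Measure.pi fun _ : Fin n => μ) ∂μ := by
  have h := ((measurePreserving_piFinSuccAbove (fun _ : Fin (n + 1) => μ) 0).symm)
  rw [← h.lintegral_comp hf, lintegral_prod]
  · simp_rw [MeasurableEquiv.piFinSuccAbove_symm_apply, Fin.insertNthEquiv, Equiv.coe_fn_mk,
      Fin.insertNth_zero]
    rfl
  · exact (hf.comp h.measurable).aemeasurable

theorem lintegral_pi_prod {n : ℕ} {α : Type} [MeasurableSpace α] (μ : Measure α) [SigmaFinite μ]
    (f : Fin n → α → ℝ≥0∞) (hf : ∀ i, Measurable (f i)) :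
    ∫⁻ x, ∏ i, f i (x i) ∂(Measure.pi fun _ : Fin n => μ) = ∏ i, ∫⁻ a, f i a ∂μ := by
  induction n with
  | zero => simp
  | succ n ih =>
    rw [lintegral_cons μ (fun x => ∏ i, f i (x i))
      (Finset.measurable_prod _ fun i _ => (hf i).comp (measurable_pi_apply i))]
    simp only [Fin.prod_univ_succ, Fin.cons_zero, Fin.cons_succ]
    have hm : Measurable fun y : Fin n → α => ∏ i, f i.succ (y i) :=
      Finset.measurable_prod _ fun i _ => (hf i.succ).comp (measurable_pi_apply i)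
    simp_rw [lintegral_const_mul _ hm, ih (fun i => f i.succ) (fun i => hf i.succ)]
    rw [lintegral_mul_const _ (hf 0)]

variable {d : ℕ}

/-- Splitting the standard Gaussian along a unit direction. -/
theorem map_split (e : E d) (he : ‖e‖ = 1) :
    ((stdGaussian (E d)).prod (gaussianReal 0 1)).map
      (fun p : E d × ℝ => (p.1 - ⟪e, p.1⟫ • e) + p.2 • e) = stdGaussian (E d) := by
  have hm : Measurable (fun p : E d × ℝ => (p.1 - ⟪e, p.1⟫ • e) + p.2 • e) := by fun_prop
  have : IsProbabilityMeasure (((stdGaussian (E d)).prod (gaussianReal 0 1)).map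
      (fun p : E d × ℝ => (p.1 - ⟪e, p.1⟫ • e) + p.2 • e)) :=
    Measure.isProbabilityMeasure_map hm.aemeasurable
  apply Measure.ext_of_charFun
  ext ξ
  rw [charFun_apply, integral_map hm.aemeasurable (Measurable.aestronglyMeasurable (by fun_prop))]
  have h1 : ∀ p : E d × ℝ, Complex.exp ((⟪(p.1 - ⟪e, p.1⟫ • e) + p.2 • e, ξ⟫ : ℝ) * Complex.I) =
      Complex.exp ((⟪p.1, ξ - ⟪e, ξ⟫ • e⟫ : ℝ) * Complex.I) *
        Complex.exp ((⟪e, ξ⟫ : ℝ) * p.2 * Complex.I) := by
    intro p
    rw [← Complex.exp_add]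
    congr 1
    simp only [inner_add_left, inner_sub_left, inner_sub_right, real_inner_smul_left,
      real_inner_smul_right, real_inner_comm e p.1]
    push_cast
    ring
  simp_rw [h1]
  rw [integral_prod_mul (f := fun x : E d => Complex.exp ((⟪x, ξ - ⟪e, ξ⟫ • e⟫ : ℝ) * Complex.I))
    (g := fun t : ℝ => Complex.exp ((⟪e, ξ⟫ : ℝ) * t * Complex.I)), ← charFun_apply,
    ← charFun_apply_real, charFun_stdGaussian, charFun_stdGaussian, charFun_gaussianReal,
    ← Complex.exp_add]
  congr 1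
  have h2 : ‖ξ - ⟪e, ξ⟫ • e‖ ^ 2 = ‖ξ‖ ^ 2 - ⟪e, ξ⟫ ^ 2 := by
    rw [@norm_sub_sq_real, norm_smul, he, real_inner_smul_right, real_inner_comm e ξ]
    simp only [Real.norm_eq_abs, mul_one, sq_abs]
    ring
  have h3 : ((‖ξ - ⟪e, ξ⟫ • e‖ : ℝ) : ℂ) ^ 2 = (‖ξ‖ : ℂ) ^ 2 - ((⟪e, ξ⟫ : ℝ) : ℂ) ^ 2 := by
    exact_mod_cast h2
  rw [h3]
  simp
  ring

theorem lintegral_split (e : E d) (he : ‖e‖ = 1) (f : E d → ℝ≥0∞) (hf : Measurable f) :
    ∫⁻ x, f x ∂(stdGaussian (E d)) =
      ∫⁻ x, ∫⁻ t, f ((x - ⟪e, x⟫ • e) + t • e) ∂(gaussianReal 0 1) ∂(stdGaussian (E d)) := by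
  have hm : Measurable (fun p : E d × ℝ => (p.1 - ⟪e, p.1⟫ • e) + p.2 • e) := by fun_prop
  conv_lhs => rw [← map_split e he]
  rw [lintegral_map hf hm]
  exact lintegral_prod _ (hf.comp hm).aemeasurable

/-- The tilt times the one-dimensional Gaussian density is at most one. -/
theorem tilt_pdf (t : ℝ) :
    gaussianPDFReal 0 1 t * Real.exp (t ^ 2 / 4) = (√(2 * Real.pi))⁻¹ * Real.exp (-(1 / 4) * t ^ 2) := by
  rw [gaussianPDFReal_def]
  simp only [NNReal.coe_one, mul_one, sub_zero]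
  rw [mul_assoc, ← Real.exp_add]
  congr 2
  ring

theorem lintegral_tilt_one (g : ℝ → ℝ≥0∞) (hg : Measurable g) :
    ∫⁻ t, ENNReal.ofReal (Real.exp (t ^ 2 / 4)) * g t ∂(gaussianReal 0 1) =
      ∫⁻ t, ENNReal.ofReal ((√(2 * Real.pi))⁻¹ * Real.exp (-(1 / 4) * t ^ 2)) * g t := by
  rw [gaussianReal_of_var_ne_zero 0 one_ne_zero,
    lintegral_withDensity_eq_lintegral_mul _ (measurable_gaussianPDF 0 1) (by fun_prop)]
  congr 1
  ext t
  simp only [Pi.mul_apply, gaussianPDF]
  rw [← mul_assoc, ← ENNReal.ofReal_mul (gaussianPDFReal_nonneg _ _ _), tilt_pdf]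

theorem inv_sqrt_two_pi_le : (√(2 * Real.pi))⁻¹ ≤ 1 := by
  apply inv_le_one_of_one_le₀
  rw [Real.one_le_sqrt]
  linarith [Real.pi_gt_three]

theorem lintegral_tilt_one_le (S : Set ℝ) (hS : MeasurableSet S) :
    ∫⁻ t, ENNReal.ofReal (Real.exp (t ^ 2 / 4)) * S.indicator 1 t ∂(gaussianReal 0 1) ≤ volume S := by
  rw [lintegral_tilt_one _ (measurable_one.indicator hS), ← lintegral_indicator_one hS]
  refine lintegral_mono fun t => ?_
  have : ENNReal.ofReal ((√(2 * Real.pi))⁻¹ * Real.exp (-(1 / 4) * t ^ 2)) ≤ 1 := by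
    rw [ENNReal.ofReal_le_one]
    have h1 : Real.exp (-(1 / 4) * t ^ 2) ≤ 1 := by
      rw [Real.exp_le_one_iff]; nlinarith [sq_nonneg t]
    exact mul_le_one₀ inv_sqrt_two_pi_le (Real.exp_pos _).le h1
  exact mul_le_of_le_one_left' this

theorem lintegral_tilt_one_total :
    ∫⁻ t, ENNReal.ofReal (Real.exp (t ^ 2 / 4)) ∂(gaussianReal 0 1) ≤ 2 := by
  have := lintegral_tilt_one (fun _ => 1) measurable_const
  simp only [mul_one] at this
  rw [this, ← ofReal_integral_eq_lintegral_ofReal]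
  · rw [integral_const_mul, integral_gaussian]
    have h : (√(2 * Real.pi))⁻¹ * √(Real.pi / (1 / 4)) ≤ 2 := by
      rw [inv_mul_le_iff₀ (Real.sqrt_pos.2 (by positivity))]
      rw [Real.sqrt_le_iff]
      refine ⟨by positivity, ?_⟩
      rw [mul_pow, Real.sq_sqrt (by positivity)]
      nlinarith [Real.pi_pos]
    calc _ ≤ ENNReal.ofReal 2 := ENNReal.ofReal_le_ofReal h
      _ = 2 := by simp
  · exact (integrable_exp_neg_mul_sq (by norm_num)).const_mul _
  · exact Filter.Eventually.of_forall fun t => by positivity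

/-- The tilt weight. -/
noncomputable def wt (x : E d) : ℝ≥0∞ := ENNReal.ofReal (Real.exp (‖x‖ ^ 2 / 4))

theorem measurable_wt : Measurable (wt : E d → ℝ≥0∞) := by
  unfold wt; fun_prop

theorem lintegral_wt : ∫⁻ x, wt x ∂(stdGaussian (E d)) ≤ 2 ^ d := by
  rw [← map_pi_eq_stdGaussian, lintegral_map measurable_wt (by fun_prop)]
  have : ∀ z : Fin d → ℝ, wt (WithLp.toLp 2 z : E d) = ∏ i, ENNReal.ofReal (Real.exp (z i ^ 2 / 4)) := by
    intro z
    unfold wt
    rw [EuclideanSpace.real_norm_sq_eq, Finset.sum_div, Real.exp_sum,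
      ENNReal.ofReal_prod_of_nonneg fun i _ => (Real.exp_pos _).le]
  simp_rw [this]
  rw [lintegral_pi_prod (gaussianReal 0 1) (fun _ t => ENNReal.ofReal (Real.exp (t ^ 2 / 4)))
    (fun _ => by fun_prop)]
  calc _ ≤ ∏ _i : Fin d, (2 : ℝ≥0∞) := Finset.prod_le_prod' fun i _ => lintegral_tilt_one_total
    _ = 2 ^ d := by simp

/-- The intersection of slabs of half-width `δ` orthogonal to the vectors of `as`. -/
def slab (δ : ℝ) (as : Finset (E d)) : Set (E d) := {x | ∀ a ∈ as, |⟪x, a⟫| ≤ δ}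

theorem measurableSet_slab (δ : ℝ) (as : Finset (E d)) : MeasurableSet (slab δ as) := by
  have : slab δ as = ⋂ a ∈ as, {x : E d | |⟪x, a⟫| ≤ δ} := by
    ext x; simp [slab]
  rw [this]
  exact Finset.measurableSet_biInter _ fun a _ => measurableSet_le (by fun_prop) measurable_const

/-- Tilted Gaussian mass of a slab intersection. -/
noncomputable def W (δ : ℝ) (as : Finset (E d)) : ℝ≥0∞ :=
  ∫⁻ x, wt x * (slab δ as).indicator 1 x ∂(stdGaussian (E d))

theorem W_empty_le (δ : ℝ) : W δ (∅ : Finset (E d)) ≤ 2 ^ d := by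
  unfold W
  have : slab δ (∅ : Finset (E d)) = univ := by ext x; simp [slab]
  simp only [this, indicator_univ, Pi.one_apply, mul_one]
  exact lintegral_wt

/-- Distance from `a` to the subspace `V`. -/
noncomputable def hd (V : Submodule ℝ (E d)) (a : E d) : ℝ := ‖a - V.starProjection a‖

theorem volume_interval (c h δ : ℝ) (hh : 0 < h) :
    volume {t : ℝ | |c + t * h| ≤ δ} = ENNReal.ofReal (2 * δ / h) := by
  have : {t : ℝ | |c + t * h| ≤ δ} = Icc ((-δ - c) / h) ((δ - c) / h) := by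
    ext t
    simp only [mem_ofPred_eq, mem_Icc, abs_le, div_le_iff₀ hh, le_div_iff₀ hh]
    constructor <;> rintro ⟨h1, h2⟩ <;> constructor <;> linarith
  rw [this, Real.volume_Icc]
  congr 1
  field_simp
  ring

open Classical in
theorem W_insert_le (δ : ℝ) (as : Finset (E d)) (a : E d)
    (hh : 0 < hd (Submodule.span ℝ (as : Set (E d))) a) :
    W δ (insert a as) ≤ W δ as * ENNReal.ofReal (2 * δ / hd (Submodule.span ℝ (as : Set (E d))) a) := by
  set V := Submodule.span ℝ (as : Set (E d)) with hV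
  set h := hd V a with hh'
  set u := a - V.starProjection a with hu
  have hun : ‖u‖ = h := rfl
  set e : E d := h⁻¹ • u with he
  have he1 : ‖e‖ = 1 := by
    rw [he, norm_smul, hun, Real.norm_eq_abs, abs_of_pos (inv_pos.2 hh), inv_mul_cancel₀ hh.ne']
  have heV : ∀ v ∈ V, ⟪e, v⟫ = 0 := by
    intro v hv
    rw [he, real_inner_smul_left, hu, Submodule.starProjection_inner_eq_zero a v hv, mul_zero]
  have hea : ⟪e, a⟫ = h := by
    have : a = u + V.starProjection a := by rw [hu]; abel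
    conv_lhs => rw [this]
    rw [inner_add_right, heV _ (V.starProjection_apply_mem a), add_zero, he, real_inner_smul_left,
      real_inner_self_eq_norm_sq, hun]
    field_simp
  have hP : ∀ x : E d, ⟪e, x - ⟪e, x⟫ • e⟫ = 0 := by
    intro x
    rw [inner_sub_right, real_inner_smul_right, real_inner_self_eq_norm_sq, he1]; ring
  have hwt : ∀ (x : E d) (t : ℝ), wt ((x - ⟪e, x⟫ • e) + t • e) =
      wt (x - ⟪e, x⟫ • e) * ENNReal.ofReal (Real.exp (t ^ 2 / 4)) := by
    intro x t
    unfold wt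
    rw [← ENNReal.ofReal_mul (Real.exp_pos _).le, ← Real.exp_add, @norm_add_sq_real,
      real_inner_smul_right, real_inner_comm e (x - ⟪e, x⟫ • e), hP, norm_smul, he1]
    congr 2
    simp only [Real.norm_eq_abs, mul_one, sq_abs]
    ring
  have hmem : ∀ (x : E d) (t : ℝ), (x + t • e) ∈ slab δ as ↔ x ∈ slab δ as := by
    intro x t
    simp only [slab, mem_ofPred_eq]
    refine forall₂_congr fun b hb => ?_
    rw [inner_add_left, real_inner_smul_left, heV b (Submodule.subset_span hb), mul_zero, add_zero]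
  have hmem2 : ∀ (x : E d) (t : ℝ), (x + t • e) ∈ slab δ (insert a as) ↔
      x ∈ slab δ as ∧ t ∈ {t : ℝ | |⟪x, a⟫ + t * h| ≤ δ} := by
    intro x t
    rw [← hmem x t]
    simp only [slab, mem_ofPred_eq, Finset.forall_mem_insert]
    rw [inner_add_left, real_inner_smul_left, hea]
    exact and_comm
  unfold W
  rw [lintegral_split e he1 (fun x => wt x * (slab δ (insert a as)).indicator 1 x)
      (measurable_wt.mul (measurable_one.indicator (measurableSet_slab _ _))),
    lintegral_split e he1 (fun x => wt x * (slab δ as).indicator 1 x)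
      (measurable_wt.mul (measurable_one.indicator (measurableSet_slab _ _))),
    ← lintegral_mul_const' _ _ ENNReal.ofReal_ne_top]
  refine lintegral_mono fun x => ?_
  simp only [hwt]
  set y := x - ⟪e, x⟫ • e
  by_cases hy : y ∈ slab δ as
  · have hS : MeasurableSet {t : ℝ | |⟪y, a⟫ + t * h| ≤ δ} :=
      measurableSet_le (by fun_prop) measurable_const
    have h1 : ∀ t : ℝ, (slab δ (insert a as)).indicator (1 : E d → ℝ≥0∞) (y + t • e) =
        {t : ℝ | |⟪y, a⟫ + t * h| ≤ δ}.indicator 1 t := by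
      intro t
      by_cases ht : t ∈ {t : ℝ | |⟪y, a⟫ + t * h| ≤ δ}
      · rw [indicator_of_mem ((hmem2 y t).2 ⟨hy, ht⟩), indicator_of_mem ht]; rfl
      · rw [indicator_of_notMem (fun h => ht ((hmem2 y t).1 h).2), indicator_of_notMem ht]
    have h2 : ∀ t : ℝ, (slab δ as).indicator (1 : E d → ℝ≥0∞) (y + t • e) = 1 := by
      intro t
      rw [indicator_of_mem ((hmem y t).2 hy)]; rfl
    simp only [h1, h2, mul_one, mul_assoc]
    rw [lintegral_const_mul _ (by
        exact Measurable.mul (by fun_prop) (measurable_one.indicator hS)),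
      lintegral_const_mul _ (by fun_prop), mul_assoc]
    gcongr
    calc _ ≤ volume {t : ℝ | |⟪y, a⟫ + t * h| ≤ δ} := lintegral_tilt_one_le _ hS
      _ = 1 * ENNReal.ofReal (2 * δ / h) := by rw [volume_interval _ _ _ hh, one_mul]
      _ ≤ _ := by
        gcongr
        calc (1 : ℝ≥0∞) = ∫⁻ _t, 1 ∂(gaussianReal 0 1) := by simp
          _ ≤ _ := lintegral_mono fun t => by
            rw [ENNReal.one_le_ofReal]
            exact Real.one_le_exp (by positivity)
  · have h1 : ∀ t : ℝ, (slab δ (insert a as)).indicator (1 : E d → ℝ≥0∞) (y + t • e) = 0 := by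
      intro t
      rw [indicator_of_notMem (fun h => hy ((hmem2 y t).1 h).1)]
    simp [h1]

end Crest.Agent.R322
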