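import Crest.Agent.R322.Sphere

/-! From the randomized learner to the deterministic programs, and the two success bounds. -/

set_option autoImplicit false
set_option linter.style.haveILetI false

namespace Crest.Agent.R322

open MeasureTheory ProbabilityTheory Set Metric
open scoped RealInnerProductSpace ENNReal NNReal
open Crest.StreamLearn

variable {d T M : ℕ}

/-- The extended transition of a learner with a fixed seed; the identity beyond the horizon. -/
noncomputable def step (L : RLearner d T M) (ω : L.Ω) (i : ℕ) (st : L.St × Option ℕ) (x : E d)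
    (y : ℝ) : L.St × Option ℕ :=
  if h : i < T then
    (if st.2.isSome then st else
      if (L.trans ⟨i, h⟩ ω st.1 x y).2 then ((L.trans ⟨i, h⟩ ω st.1 x y).1, some (i + 1))
      else ((L.trans ⟨i, h⟩ ω st.1 x y).1, none))
  else st

/-- The extended initial state. -/
noncomputable def start (L : RLearner d T M) (ω : L.Ω) : L.St × Option ℕ :=
  (L.init ω, if L.stopFirst ω then some 0 else none)

theorem run_eq (L : RLearner d T M) (ω : L.Ω) (s : E d) (xs : Fin T → E d) :
    L.run ω s xs = runF (step L ω) 0 T (start L ω) xs (meas xs s) := by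
  unfold RLearner.run runF start
  congr 1
  ext1 st
  ext1 t
  simp only [step, zero_add, t.isLt, dite_true, Fin.eta, meas]

theorem step_label (L : RLearner d T M) (ω : L.Ω) (i : ℕ) (o : L.St × Option ℕ) (x : E d) (y : ℝ) :
    (step L ω i o x y).2 = o.2 ∨ (step L ω i o x y).2 = some (i + 1) := by
  unfold step
  split_ifs with h1 h2 h3
  · exact Or.inl rfl
  · exact Or.inr rfl
  · left
    simp only [Bool.not_eq_true, Option.isSome_eq_false_iff, Option.isNone_iff_eq_none] at h2
    exact h2.symm
  · exact Or.inl rfl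

theorem step_id (L : RLearner d T M) (ω : L.Ω) (i : ℕ) (hi : T ≤ i) (o : L.St × Option ℕ)
    (x : E d) (y : ℝ) : step L ω i o x y = o := by
  unfold step
  rw [dif_neg (by omega)]

theorem measurableSet_step (L : RLearner d T M) (i : ℕ) (o o' : L.St × Option ℕ) :
    @MeasurableSet (L.Ω × (E d × ℝ)) (@Prod.instMeasurableSpace _ _ L.mΩ _)
      {p | step L p.1 i o p.2.1 p.2.2 = o'} := by
  letI := L.mΩ
  unfold step
  by_cases h1 : i < T
  · simp only [h1, dite_true]
    by_cases h2 : o.2.isSome
    · simp only [h2, if_true]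
      exact MeasurableSet.const _
    · simp only [h2]
      have ha : MeasurableSet {p : L.Ω × (E d × ℝ) | (L.trans ⟨i, h1⟩ p.1 o.1 p.2.1 p.2.2).1 = o'.1} :=
        (L.trans_measurable ⟨i, h1⟩ o.1).1 (t := {o'.1}) MeasurableSpace.measurableSet_top
      have hb : MeasurableSet {p : L.Ω × (E d × ℝ) | (L.trans ⟨i, h1⟩ p.1 o.1 p.2.1 p.2.2).2 = true} :=
        (L.trans_measurable ⟨i, h1⟩ o.1).2 (measurableSet_singleton true)
      have := (hb.inter (ha.inter (MeasurableSet.const (some (i + 1) = o'.2)))).union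
        (hb.compl.inter (ha.inter (MeasurableSet.const (none = o'.2))))
      convert this using 1
      ext p
      by_cases h3 : (L.trans ⟨i, h1⟩ p.1 o.1 p.2.1 p.2.2).2 = true <;> simp [h3, Prod.ext_iff]
  · simp only [h1, dite_false]
    exact MeasurableSet.const _

theorem measSteps_step (L : RLearner d T M) (ω : L.Ω) : MeasSteps (step L ω) := by
  intro i o o'
  letI := L.mΩ
  exact measurable_prodMk_left (x := ω) (measurableSet_step L i o o')

theorem measurableSet_start (L : RLearner d T M) (o : L.St × Option ℕ) :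
    @MeasurableSet L.Ω L.mΩ {ω | start L ω = o} := by
  letI := L.mΩ
  have ha : MeasurableSet {ω : L.Ω | L.init ω = o.1} :=
    L.init_measurable (t := {o.1}) MeasurableSpace.measurableSet_top
  have hb : MeasurableSet {ω : L.Ω | L.stopFirst ω = true} :=
    L.stopFirst_measurable (measurableSet_singleton true)
  have := (hb.inter (ha.inter (MeasurableSet.const (some 0 = o.2)))).union
    (hb.compl.inter (ha.inter (MeasurableSet.const (none = o.2))))
  convert this using 1
  ext ω
  by_cases h3 : L.stopFirst ω = true <;> simp [start, h3, Prod.ext_iff]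

/-- The success event, with the signal in the ambient space. -/
def succ (L : RLearner d T M) (ε : ℝ) : Set (E d × (L.Ω × (Fin T → E d))) :=
  {p | Real.arccos ⟪L.output p.2.1 p.1 p.2.2, p.1⟫ ≤ ε}

theorem measurableSet_succ (L : RLearner d T M) (ε : ℝ) :
    @MeasurableSet _ (@Prod.instMeasurableSpace _ _ _ (@Prod.instMeasurableSpace _ _ L.mΩ _))
      (succ L ε) := by
  letI := L.mΩ
  letI := L.fin
  have h1 : ∀ o, MeasurableSet {p : E d × (L.Ω × (Fin T → E d)) | L.run p.2.1 p.1 p.2.2 = o} := by
    intro o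
    simp only [run_eq, runF]
    refine measurableSet_fold (Z := E d × (L.Ω × (Fin T → E d)))
      (fun (i : Fin T) p o => step L p.2.1 (0 + i.val) o (p.2.2 i) (meas p.2.2 p.1 i))
      (fun i o o' => ?_) _ (fun p => start L p.2.1) (fun o'' => ?_) o
    · have hf : Measurable fun p : E d × (L.Ω × (Fin T → E d)) =>
          (p.2.1, (p.2.2 i, meas p.2.2 p.1 i)) := by unfold meas; fun_prop
      exact hf (measurableSet_step L (0 + i.val) o o')
    · have hf : Measurable fun p : E d × (L.Ω × (Fin T → E d)) => p.2.1 := by fun_prop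
      exact hf (measurableSet_start L o'')
  have h2 : Measurable fun p : E d × (L.Ω × (Fin T → E d)) => L.output p.2.1 p.1 p.2.2 := by
    refine measurable_select (fun p : E d × (L.Ω × (Fin T → E d)) => L.run p.2.1 p.1 p.2.2) h1
      (fun o p => L.out (o.2.getD T) p.2.1 o.1) fun o => ?_
    exact (L.out_measurable _ _).comp (measurable_fst.comp measurable_snd)
  exact measurableSet_le (Real.continuous_arccos.measurable.comp (h2.inner measurable_fst))
    measurable_const

theorem successProb_eq (L : RLearner d T M) (hd : 0 < d) (ε : ℝ) :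
    letI := L.mΩ
    L.successProb ε = (((sig d).prod (L.ρ.prod (gam d T))) (succ L ε)).toReal := by
  letI := L.mΩ
  have := L.prob
  have := isProb_sphereUniform hd
  have hp : MeasurePreserving (Subtype.val : Sphere d → E d) (sphereUniform d) (sig d) :=
    ⟨measurable_subtype_coe, rfl⟩
  rw [← (hp.prod (MeasurePreserving.id (L.ρ.prod (gam d T)))).measure_preimage
    (measurableSet_succ L ε).nullMeasurableSet]
  rfl

theorem small_bound (L : RLearner d T M) (hd : 0 < d) (ε : ℝ) (hε : 0 ≤ ε) (hε1 : ε ≤ 1 / 10) :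
    L.successProb ε ≤ 1 / 2 + 50 / 99 * (T / d) := by
  letI := L.mΩ
  have := L.prob
  have := isProb_sig hd
  rw [successProb_eq L hd]
  refine ENNReal.toReal_le_of_le_ofReal (by positivity) ?_
  rw [Measure.prod_apply_symm (measurableSet_succ L ε)]
  calc _ ≤ ∫⁻ _p, ENNReal.ofReal (1 / 2 + 50 / 99 * (T / d)) ∂(L.ρ.prod (gam d T)) :=
        lintegral_mono fun p => ?_
    _ = _ := by simp
  refine reflect_bound hd (Submodule.span ℝ (range p.2)) T
    ((finrank_range_le_card p.2).trans (by simp)) _
    (measurable_prodMk_right (measurableSet_succ L ε)) fun s hs h1 h2 => ?_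
  set R := (Submodule.span ℝ (range p.2)).reflection
  have hm : meas p.2 (R s) = meas p.2 s := by
    ext j
    have : R (p.2 j) = p.2 j :=
      Submodule.reflection_mem_subspace_eq_self (Submodule.subset_span (mem_range_self j))
    simp only [meas]
    conv_lhs => rw [← this]
    rw [LinearIsometryEquiv.inner_map_map]
  have ho : L.output p.1 (R s) p.2 = L.output p.1 s p.2 := by
    simp only [RLearner.output, run_eq, hm]
  simp only [succ, mem_preimage, mem_ofPred_eq] at h1 h2
  rw [ho] at h2
  have hu : ‖L.output p.1 s p.2‖ = 1 := L.out_unit _ _ _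
  have h3 := norm_sub_le_of_angle _ _ hu hs ε hε (by linarith) h1
  have h4 := norm_sub_le_of_angle _ _ hu (by rw [R.norm_map, hs]) ε hε (by linarith) h2
  calc ‖s - R s‖ = ‖(s - L.output p.1 s p.2) - (R s - L.output p.1 s p.2)‖ := by congr 1; abel
    _ ≤ _ := norm_sub_le _ _
    _ ≤ 1 / 5 := by linarith

theorem large_bound (L : RLearner d T M) (ε : ℝ) (hε : 0 < ε) (hε1 : ε ≤ 1) {k l q : ℕ}
    (hl : q + k + 1 ≤ l) (hq : 2 * (q + 1) ≤ d) (hk : k ≤ d) (hld : l ≤ d - 1)
    (lam : ℝ) (hlam : 0 < lam) (j : ℕ) (hj : T ≤ j * k) :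
    L.successProb ε ≤ 2 * 3 ^ d * ε ^ (d - 1 - l) *
      (lam + (2 ^ M * (k + 1)) * ((2 ^ d) ^ k * (Cc d k q l / lam) ^ (q + 1))) ^ j := by
  letI := L.mΩ
  letI := L.fin
  have hd : 0 < d := by omega
  have := L.prob
  have := isProb_sig hd
  have hC : 0 ≤ Cc d k q l := by unfold Cc; positivity
  rw [successProb_eq L hd]
  refine ENNReal.toReal_le_of_le_ofReal (by positivity) ?_
  have hS := measurableSet_succ L ε
  have hS' : MeasurableSet {p : (E d × L.Ω) × (Fin T → E d) | (p.1.1, (p.1.2, p.2)) ∈ succ L ε} := by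
    have hf : Measurable fun p : (E d × L.Ω) × (Fin T → E d) => (p.1.1, (p.1.2, p.2)) := by
      fun_prop
    exact hf hS
  have hmeas : Measurable fun p : E d × L.Ω => gam d T {X | (p.1, (p.2, X)) ∈ succ L ε} :=
    measurable_measure_prodMk_left (ν := gam d T) hS'
  rw [Measure.prod_apply hS]
  have h1 : ∀ s, (L.ρ.prod (gam d T)) (Prod.mk s ⁻¹' succ L ε) =
      ∫⁻ ω, gam d T {X | (s, (ω, X)) ∈ succ L ε} ∂L.ρ := fun s =>
    Measure.prod_apply (measurable_prodMk_left hS)
  simp_rw [h1]
  rw [lintegral_lintegral_swap (f := fun s ω => gam d T {X | (s, (ω, X)) ∈ succ L ε})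
    hmeas.aemeasurable]
  set B := ENNReal.ofReal (2 * 3 ^ d * ε ^ (d - 1 - l) *
      (lam + (2 ^ M * (k + 1)) * ((2 ^ d) ^ k * (Cc d k q l / lam) ^ (q + 1))) ^ j)
  calc _ ≤ ∫⁻ _ω, B ∂L.ρ := lintegral_mono fun ω => ?_
    _ = _ := by simp
  let U : L.St × Option ℕ → E d → ℝ≥0∞ := fun o =>
    {s : E d | Real.arccos ⟪L.out (o.2.getD T) ω o.1, s⟫ ≤ ε}.indicator 1
  have hU : ∀ o, Measurable (U o) := fun o =>
    measurable_one.indicator (measurableSet_le
      (Real.continuous_arccos.measurable.comp (by fun_prop)) measurable_const)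
  have hF : ∀ o, Frost ((sig d).withDensity (U o)) (2 * 3 ^ d * ε ^ (d - 1 - l)) l := by
    intro o
    refine frost_cap hd hld (L.out (o.2.getD T) ω o.1) ε hε _ fun s hs => ?_
    by_cases h : s ∈ {s : E d | Real.arccos ⟪L.out (o.2.getD T) ω o.1, s⟫ ≤ ε}
    · have : s ∈ closedBall (L.out (o.2.getD T) ω o.1) ε := by
        rw [mem_closedBall, dist_eq_norm]
        exact norm_sub_le_of_angle _ _ (L.out_unit _ _ _) hs ε hε.le hε1 h
      simp only [U]
      rw [indicator_of_mem h, indicator_of_mem this]
    · simp only [U]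
      rw [indicator_of_notMem h]; exact zero_le
  have hN : ((Fintype.card L.St * (k + 1) : ℕ) : ℝ) ≤ 2 ^ M * (k + 1) := by
    exact_mod_cast Nat.mul_le_mul_right _ L.card_le
  have hmain := frost_blocks (sig d) (measSteps_step L ω) (step_label L ω) (by positivity)
    hl hq hk lam hlam _ hN hU hF j 0 (start L ω) 0 1 one_pos
  obtain ⟨e, he⟩ := Nat.exists_eq_add_of_le hj
  rw [he, Val_add (measSteps_step L ω) hU,
    Val_id (measSteps_step L ω) hU e _ (fun i hi => step_id L ω i (by omega)), one_pow, mul_one,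
    withDensity_apply _ measurableSet_closedBall,
    Measure.restrict_eq_self_of_ae_mem (ae_sig.mono fun s hs => by simp [hs])] at hmain
  refine le_trans (le_of_eq ?_) hmain
  congr 1
  ext s
  have hX : MeasurableSet {X : Fin T → E d | (s, (ω, X)) ∈ succ L ε} := by
    have hf : Measurable fun X : Fin T → E d => (s, (ω, X)) := by fun_prop
    exact hf hS
  rw [Val, ← lintegral_indicator_one hX]
  congr 1
  ext X
  rw [← run_eq]
  rfl

end Crest.Agent.R322
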