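import Crest.Agent.R322.Tube

/-! The tilted moment bound (row 322). -/

set_option autoImplicit false

namespace Crest.Agent.R322

open MeasureTheory ProbabilityTheory Set Metric
open scoped RealInnerProductSpace ENNReal NNReal
open Crest.StreamLearn

variable {d k : ℕ}

/-- The `k`-fold standard Gaussian. -/
noncomputable abbrev gam (d k : ℕ) : Measure (Fin k → E d) :=
  Measure.pi fun _ : Fin k => stdGaussian (E d)

/-- The signals that the rows of `X` do not separate from `s₀` at scale `δ`. -/
def near (δ : ℝ) (s₀ : E d) (X : Fin k → E d) : Set (E d) := {s | ∀ j, |⟪X j, s - s₀⟫| ≤ δ}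

theorem isClosed_near (δ : ℝ) :
    IsClosed {p : (E d × (Fin k → E d)) × E d | p.2 ∈ near δ p.1.1 p.1.2} := by
  have : {p : (E d × (Fin k → E d)) × E d | p.2 ∈ near δ p.1.1 p.1.2} =
      ⋂ j, {p : (E d × (Fin k → E d)) × E d | |⟪p.1.2 j, p.2 - p.1.1⟫| ≤ δ} := by
    ext p; simp [near]
  rw [this]
  exact isClosed_iInter fun j => isClosed_le (by fun_prop) continuous_const

theorem measurable_near (κ : Measure (E d)) [SFinite κ] (δ : ℝ) :
    Measurable fun p : E d × (Fin k → E d) => κ (near δ p.1 p.2) :=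
  measurable_measure_prodMk_left (ν := κ) (isClosed_near δ).measurableSet

theorem measurableSet_near (δ : ℝ) (s₀ : E d) (X : Fin k → E d) : MeasurableSet (near δ s₀ X) :=
  measurable_prodMk_left (x := (s₀, X)) (isClosed_near δ).measurableSet

/-- Product weight. -/
noncomputable def Hw (δ : ℝ) (as : Finset (E d)) (X : Fin k → E d) : ℝ≥0∞ :=
  ∏ j, wt (X j) * (slab δ as).indicator 1 (X j)

theorem measurable_Hw (δ : ℝ) (as : Finset (E d)) : Measurable (Hw δ as : (Fin k → E d) → ℝ≥0∞) :=
  Finset.measurable_prod _ fun j _ =>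
    (measurable_wt.mul (measurable_one.indicator (measurableSet_slab _ _))).comp
      (measurable_pi_apply j)

theorem lintegral_Hw (δ : ℝ) (as : Finset (E d)) : ∫⁻ X, Hw δ as X ∂(gam d k) = W δ as ^ k := by
  unfold Hw
  rw [lintegral_pi_prod (stdGaussian (E d)) (fun _ x => wt x * (slab δ as).indicator 1 x)
    (fun _ => measurable_wt.mul (measurable_one.indicator (measurableSet_slab _ _)))]
  simp [W]

open Classical in
theorem Hw_insert (δ : ℝ) (as : Finset (E d)) (s₀ s : E d) (X : Fin k → E d) :
    Hw δ as X * (near δ s₀ X).indicator 1 s = Hw δ (insert (s - s₀) as) X := by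
  by_cases hs : s ∈ near δ s₀ X
  · rw [indicator_of_mem hs, Pi.one_apply, mul_one]
    refine Finset.prod_congr rfl fun j _ => ?_
    congr 1
    have : X j ∈ slab δ as ↔ X j ∈ slab δ (insert (s - s₀) as) := by
      simp only [slab, mem_ofPred_eq, Finset.forall_mem_insert]
      exact ⟨fun h => ⟨hs j, h⟩, fun h => h.2⟩
    by_cases h : X j ∈ slab δ as
    · rw [indicator_of_mem h, indicator_of_mem (this.1 h)]
    · rw [indicator_of_notMem h, indicator_of_notMem (fun h' => h (this.2 h'))]
  · rw [indicator_of_notMem hs, mul_zero]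
    simp only [near, mem_ofPred_eq, not_forall] at hs
    obtain ⟨j, hj⟩ := hs
    symm
    refine Finset.prod_eq_zero (Finset.mem_univ j) ?_
    rw [indicator_of_notMem, mul_zero]
    intro h
    exact hj (h _ (Finset.mem_insert_self _ _))

open Classical in
theorem W_insert_le' (δ : ℝ) (hδ : 0 < δ) (as : Finset (E d)) (a : E d) :
    W δ (insert a as) ≤ W δ as * (ENNReal.ofReal (2 * δ) *
      (ENNReal.ofReal (hd (Submodule.span ℝ (as : Set (E d))) a))⁻¹) := by
  rcases (hd_nonneg (Submodule.span ℝ (as : Set (E d))) a).eq_or_lt with h | h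
  · rw [← h, ENNReal.ofReal_zero, ENNReal.inv_zero, ENNReal.mul_top (by simpa using hδ)]
    have : W δ (insert a as) ≤ W δ as := by
      refine lintegral_mono fun x => ?_
      refine mul_le_mul_right ?_ _
      refine indicator_le_indicator_of_subset ?_ (fun _ => zero_le_one) x
      intro y hy b hb
      exact hy b (Finset.mem_insert_of_mem hb)
    refine this.trans ?_
    by_cases h0 : W δ as = 0
    · simp [h0]
    · rw [ENNReal.mul_top h0]; exact le_top
  · refine (W_insert_le δ as a h).trans (le_of_eq ?_)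
    rw [div_eq_mul_inv, ENNReal.ofReal_mul (by positivity), ENNReal.ofReal_inv_of_pos h]

theorem measurable_near' (κ : Measure (E d)) [SFinite κ] (δ : ℝ) (s₀ : E d) :
    Measurable fun X : Fin k → E d => κ (near δ s₀ X) := by
  have hf : Measurable fun X : Fin k → E d => ((s₀, X) : E d × (Fin k → E d)) := by fun_prop
  have := (measurable_near κ δ).comp hf
  simpa only [Function.comp_def] using this

theorem measurable_near_ind (δ : ℝ) (s₀ : E d) :
    Measurable fun p : (Fin k → E d) × E d => (near δ s₀ p.1).indicator (1 : E d → ℝ≥0∞) p.2 := by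
  have hS : MeasurableSet {p : (Fin k → E d) × E d | p.2 ∈ near δ s₀ p.1} := by
    have hf : Measurable fun p : (Fin k → E d) × E d => (((s₀, p.1), p.2) :
      (E d × (Fin k → E d)) × E d) := by fun_prop
    exact hf (isClosed_near δ).measurableSet
  have : (fun p : (Fin k → E d) × E d => (near δ s₀ p.1).indicator (1 : E d → ℝ≥0∞) p.2) =
      {p : (Fin k → E d) × E d | p.2 ∈ near δ s₀ p.1}.indicator 1 := by
    ext p
    by_cases h : p.2 ∈ near δ s₀ p.1
    · rw [indicator_of_mem h, indicator_of_mem (show p ∈ {p : (Fin k → E d) × E d |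
        p.2 ∈ near δ s₀ p.1} from h)]; rfl
    · rw [indicator_of_notMem h, indicator_of_notMem (show p ∉ {p : (Fin k → E d) × E d |
        p.2 ∈ near δ s₀ p.1} from h)]
  rw [this]
  exact measurable_one.indicator hS

theorem moment_aux (κ : Measure (E d)) [SFinite κ] {l q : ℕ} (hκ : Frost κ 1 l)
    (hsupp : κ (closedBall 0 1)ᶜ = 0) (hl : q + k + 1 ≤ l) (s₀ : E d) (hs₀ : ‖s₀‖ ≤ 1)
    (δ : ℝ) (hδ : 0 < δ) (m : ℕ) :
    ∀ as : Finset (E d), as.card + m ≤ q + 1 →
      ∫⁻ X, Hw δ as X * κ (near δ s₀ X) ^ m ∂(gam d k) ≤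
        W δ as ^ k * (ENNReal.ofReal (2 * δ) ^ k * ENNReal.ofReal (2 * 2 ^ q * 4 ^ l)) ^ m := by
  classical
  have hg : Measurable fun X : Fin k → E d => κ (near δ s₀ X) := measurable_near' κ δ s₀
  induction m with
  | zero => intro as _; simp [lintegral_Hw]
  | succ m ih =>
    intro as has
    set B := ENNReal.ofReal (2 * δ) ^ k * ENNReal.ofReal (2 * 2 ^ q * 4 ^ l) with hB
    have hjoint : Measurable fun p : (Fin k → E d) × E d =>
        Hw δ as p.1 * (near δ s₀ p.1).indicator 1 p.2 * κ (near δ s₀ p.1) ^ m := by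
      have h1 : Measurable fun p : (Fin k → E d) × E d => Hw δ as p.1 :=
        (measurable_Hw δ as).comp measurable_fst
      have h2 : Measurable fun p : (Fin k → E d) × E d => κ (near δ s₀ p.1) :=
        hg.comp measurable_fst
      exact (h1.mul (measurable_near_ind δ s₀)).mul (h2.pow_const m)
    have hV : Module.finrank ℝ (Submodule.span ℝ (as : Set (E d))) ≤ q :=
      (finrank_span_finset_le_card as).trans (by omega)
    calc ∫⁻ X, Hw δ as X * κ (near δ s₀ X) ^ (m + 1) ∂(gam d k)
        = ∫⁻ X, ∫⁻ s, Hw δ as X * (near δ s₀ X).indicator 1 s * κ (near δ s₀ X) ^ m ∂κ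
            ∂(gam d k) := by
          congr 1
          ext X
          have hm : Measurable fun s : E d => Hw δ as X * (near δ s₀ X).indicator 1 s :=
            measurable_const.mul (measurable_one.indicator (measurableSet_near δ s₀ X))
          rw [lintegral_mul_const _ hm,
            lintegral_const_mul _ (measurable_one.indicator (measurableSet_near δ s₀ X)),
            lintegral_indicator_one (measurableSet_near δ s₀ X)]
          ring
      _ = ∫⁻ s, ∫⁻ X, Hw δ as X * (near δ s₀ X).indicator 1 s * κ (near δ s₀ X) ^ m ∂(gam d k)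
            ∂κ := lintegral_lintegral_swap hjoint.aemeasurable
      _ ≤ ∫⁻ s, (W δ as ^ k * B ^ m * ENNReal.ofReal (2 * δ) ^ k) *
            (ENNReal.ofReal (hd (Submodule.span ℝ (as : Set (E d))) (s - s₀)))⁻¹ ^ k ∂κ := by
          refine lintegral_mono fun s => ?_
          simp only [Hw_insert]
          refine (ih _ ((Nat.add_le_add_right (Finset.card_insert_le _ _) m).trans (by omega))).trans ?_
          calc _ ≤ (W δ as * (ENNReal.ofReal (2 * δ) *
              (ENNReal.ofReal (hd (Submodule.span ℝ (as : Set (E d))) (s - s₀)))⁻¹)) ^ k * B ^ m := by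
                gcongr
                exact W_insert_le' δ hδ as _
            _ = _ := by ring
      _ ≤ (W δ as ^ k * B ^ m * ENNReal.ofReal (2 * δ) ^ k) * ENNReal.ofReal (2 * 2 ^ q * 4 ^ l) := by
          rw [lintegral_const_mul]
          · gcongr
            exact tube_integral κ hκ hsupp hl _ hV s₀ hs₀
          · exact ((((continuous_hd _).comp
              (continuous_id.sub continuous_const)).measurable.ennreal_ofReal).inv).pow_const k
      _ = W δ as ^ k * B ^ (m + 1) := by rw [hB]; ring

/-- The tilted `(q+1)`-st moment of the mass of unseparated signals. -/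
theorem moment (κ : Measure (E d)) [SFinite κ] {l q : ℕ} (hκ : Frost κ 1 l)
    (hsupp : κ (closedBall 0 1)ᶜ = 0) (hl : q + k + 1 ≤ l) (s₀ : E d) (hs₀ : ‖s₀‖ ≤ 1)
    (δ : ℝ) (hδ : 0 < δ) :
    ∫⁻ X, (∏ j, wt (X j)) * κ (near δ s₀ X) ^ (q + 1) ∂(gam d k) ≤
      (2 ^ d) ^ k * (ENNReal.ofReal (2 * δ) ^ k * ENNReal.ofReal (2 * 2 ^ q * 4 ^ l)) ^ (q + 1) := by
  have := moment_aux κ hκ hsupp hl s₀ hs₀ δ hδ (q + 1) ∅ (by simp)
  have h : ∀ X : Fin k → E d, Hw δ ∅ X = ∏ j, wt (X j) := by
    intro X
    have : slab δ (∅ : Finset (E d)) = univ := by ext x; simp [slab]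
    simp [Hw, this]
  simp only [h] at this
  refine this.trans ?_
  gcongr
  exact W_empty_le δ

end Crest.Agent.R322
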