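import Crest.Agent.R322.Block

/-! Branching programs reading Gaussian samples: value functions and their Frostman constants. -/

set_option autoImplicit false

namespace Crest.Agent.R322

open MeasureTheory ProbabilityTheory Set Metric
open scoped RealInnerProductSpace ENNReal NNReal
open Crest.StreamLearn

theorem measurableSet_fold {Z O ι : Type} [MeasurableSpace Z] [Countable O]
    (τ : ι → Z → O → O) (hτ : ∀ i o o', MeasurableSet {z | τ i z o = o'}) (l : List ι) :
    ∀ (init : Z → O), (∀ o, MeasurableSet {z | init z = o}) →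
      ∀ o, MeasurableSet {z | l.foldl (fun o i => τ i z o) (init z) = o} := by
  induction l with
  | nil => intro init h o; simpa using h o
  | cons i l ih =>
    intro init h o
    simp only [List.foldl_cons]
    refine ih (fun z => τ i z (init z)) (fun o => ?_) o
    have : {z | τ i z (init z) = o} = ⋃ o', {z | init z = o'} ∩ {z | τ i z o' = o} := by
      ext z; simp
    rw [this]
    exact MeasurableSet.iUnion fun o' => (h o').inter (hτ i o' o)

theorem measurable_select {Z O γ : Type} [MeasurableSpace Z] [MeasurableSpace γ] [Countable O]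
    (f : Z → O) (hf : ∀ o, MeasurableSet {z | f z = o}) (U : O → Z → γ)
    (hU : ∀ o, Measurable (U o)) : Measurable fun z => U (f z) z := by
  intro t ht
  have : (fun z => U (f z) z) ⁻¹' t = ⋃ o, {z | f z = o} ∩ U o ⁻¹' t := by
    ext z; simp
  rw [this]
  exact MeasurableSet.iUnion fun o => (hf o).inter (hU o ht)

variable {d : ℕ} {O : Type}

/-- Run `n` steps starting with step number `t`. -/
def runF (τ : ℕ → O → E d → ℝ → O) (t n : ℕ) (o : O) (X : Fin n → E d) (y : Fin n → ℝ) : O :=
  (List.finRange n).foldl (fun o i => τ (t + i.val) o (X i) (y i)) o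

theorem runF_succ (τ : ℕ → O → E d → ℝ → O) (t n : ℕ) (o : O) (X : Fin (n + 1) → E d)
    (y : Fin (n + 1) → ℝ) :
    runF τ t (n + 1) o X y =
      runF τ (t + 1) n (τ t o (X 0) (y 0)) (fun i => X i.succ) (fun i => y i.succ) := by
  unfold runF
  rw [List.finRange_succ, List.foldl_cons, List.foldl_map]
  simp only [Fin.val_zero, add_zero, Fin.val_succ]
  congr 1
  ext o i
  rw [show t + (i.val + 1) = t + 1 + i.val by omega]

/-- Measurability of the steps. -/
def MeasSteps (τ : ℕ → O → E d → ℝ → O) : Prop :=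
  ∀ i o o', MeasurableSet {p : E d × ℝ | τ i o p.1 p.2 = o'}

theorem measurableSet_runF [Countable O] {τ : ℕ → O → E d → ℝ → O} (hτ : MeasSteps τ) (t n : ℕ)
    (o o' : O) :
    MeasurableSet {p : (Fin n → E d) × (Fin n → ℝ) | runF τ t n o p.1 p.2 = o'} := by
  refine measurableSet_fold (Z := (Fin n → E d) × (Fin n → ℝ))
    (fun (i : Fin n) p o => τ (t + i.val) o (p.1 i) (p.2 i)) (fun i o o' => ?_) _ (fun _ => o)
    (fun o'' => ?_) o'
  · have hf : Measurable fun p : (Fin n → E d) × (Fin n → ℝ) => (p.1 i, p.2 i) := by fun_prop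
    exact hf (hτ (t + i.val) o o')
  · exact MeasurableSet.const _

/-- The value of `n` steps from step `t` followed by the terminal value `U`. -/
noncomputable def Val (τ : ℕ → O → E d → ℝ → O) (t n : ℕ) (U : O → E d → ℝ≥0∞) (o : O)
    (s : E d) : ℝ≥0∞ :=
  ∫⁻ X, U (runF τ t n o X (meas X s)) s ∂(gam d n)

theorem measurable_val_integrand [Countable O] {τ : ℕ → O → E d → ℝ → O} (hτ : MeasSteps τ)
    (t n : ℕ) {U : O → E d → ℝ≥0∞} (hU : ∀ o, Measurable (U o)) (o : O) :
    Measurable fun p : E d × (Fin n → E d) => U (runF τ t n o p.2 (meas p.2 p.1)) p.1 := by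
  have hm : Measurable fun p : E d × (Fin n → E d) => (p.2, meas p.2 p.1) :=
    measurable_snd.prodMk continuous_meas.measurable
  exact measurable_select (fun p : E d × (Fin n → E d) => runF τ t n o p.2 (meas p.2 p.1))
    (fun o' => hm (measurableSet_runF hτ t n o o')) (fun o p => U o p.1)
    (fun o => (hU o).comp measurable_fst)

theorem measurable_Val [Countable O] {τ : ℕ → O → E d → ℝ → O} (hτ : MeasSteps τ)
    (t n : ℕ) {U : O → E d → ℝ≥0∞} (hU : ∀ o, Measurable (U o)) (o : O) :
    Measurable (Val τ t n U o) :=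
  (measurable_val_integrand hτ t n hU o).lintegral_prod_right'

theorem Val_zero (τ : ℕ → O → E d → ℝ → O) (t : ℕ) (U : O → E d → ℝ≥0∞) : Val τ t 0 U = U := by
  ext o s
  simp [Val, runF]

theorem Val_succ [Countable O] {τ : ℕ → O → E d → ℝ → O} (hτ : MeasSteps τ)
    (t n : ℕ) {U : O → E d → ℝ≥0∞} (hU : ∀ o, Measurable (U o)) (o : O) (s : E d) :
    Val τ t (n + 1) U o s = ∫⁻ x, Val τ (t + 1) n U (τ t o x ⟪x, s⟫) s ∂(stdGaussian (E d)) := by
  unfold Val
  have hm : Measurable fun X : Fin (n + 1) → E d => U (runF τ t (n + 1) o X (meas X s)) s := by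
    have := (measurable_val_integrand hτ t (n + 1) hU o).comp (measurable_prodMk_left (x := s))
    simpa only [Function.comp_def] using this
  rw [lintegral_cons _ _ hm]
  congr 1
  ext x
  congr 1
  ext X
  rw [runF_succ]
  rfl

theorem Val_add [Countable O] {τ : ℕ → O → E d → ℝ → O} (hτ : MeasSteps τ)
    {U : O → E d → ℝ≥0∞} (hU : ∀ o, Measurable (U o)) (n m : ℕ) :
    ∀ t, Val τ t (n + m) U = Val τ t n (Val τ (t + n) m U) := by
  induction n with
  | zero => intro t; simp [Val_zero]
  | succ n ih =>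
    intro t
    ext o s
    rw [show n + 1 + m = (n + m) + 1 by omega, Val_succ hτ _ _ hU,
      Val_succ hτ _ _ (measurable_Val hτ _ _ hU), ih (t + 1), show t + 1 + n = t + (n + 1) by omega]

theorem Val_id [Countable O] {τ : ℕ → O → E d → ℝ → O} (hτ : MeasSteps τ)
    {U : O → E d → ℝ≥0∞} (hU : ∀ o, Measurable (U o)) (n : ℕ) :
    ∀ t, (∀ i, t ≤ i → ∀ o x y, τ i o x y = o) → Val τ t n U = U := by
  induction n with
  | zero => intro t _; exact Val_zero τ t U
  | succ n ih =>
    intro t ht
    ext o s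
    rw [Val_succ hτ _ _ hU, ih (t + 1) fun i hi => ht i (by omega)]
    simp [ht t le_rfl]

theorem runF_label {St : Type} {τ : ℕ → St × Option ℕ → E d → ℝ → St × Option ℕ}
    (hlab : ∀ i o x y, (τ i o x y).2 = o.2 ∨ (τ i o x y).2 = some (i + 1)) (n : ℕ) :
    ∀ (t : ℕ) (o : St × Option ℕ) (X : Fin n → E d) (y : Fin n → ℝ),
      (runF τ t n o X y).2 ∈ insert o.2 ((Finset.range n).image fun i => some (t + i + 1)) := by
  induction n with
  | zero => intro t o X y; simp [runF]
  | succ n ih =>
    intro t o X y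
    rw [runF_succ]
    have := ih (t + 1) (τ t o (X 0) (y 0)) (fun i => X i.succ) (fun i => y i.succ)
    simp only [Finset.mem_insert, Finset.mem_image, Finset.mem_range] at this ⊢
    rcases this with h | ⟨i, hi, h⟩
    · rcases hlab t o (X 0) (y 0) with h' | h'
      · exact Or.inl (h.trans h')
      · exact Or.inr ⟨0, by omega, (h.trans h').symm⟩
    · exact Or.inr ⟨i + 1, by omega, by rw [← h]; congr 1; omega⟩

theorem frost_blocks (σ : Measure (E d)) [SFinite σ] {St : Type} [Fintype St]
    {τ : ℕ → St × Option ℕ → E d → ℝ → St × Option ℕ} (hτ : MeasSteps τ)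
    (hlab : ∀ i o x y, (τ i o x y).2 = o.2 ∨ (τ i o x y).2 = some (i + 1))
    {k l q : ℕ} {K : ℝ} (hK : 0 < K) (hl : q + k + 1 ≤ l) (hq : 2 * (q + 1) ≤ d) (hk : k ≤ d)
    (lam : ℝ) (hlam : 0 < lam) (N : ℝ) (hN : ((Fintype.card St * (k + 1) : ℕ) : ℝ) ≤ N)
    {U : St × Option ℕ → E d → ℝ≥0∞} (hU : ∀ o, Measurable (U o))
    (hF : ∀ o, Frost (σ.withDensity (U o)) K l) (j : ℕ) :
    ∀ t o, Frost (σ.withDensity (Val τ t (j * k) U o))
      (K * (lam + N * ((2 ^ d) ^ k * (Cc d k q l / lam) ^ (q + 1))) ^ j) l := by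
  classical
  have hN0 : 0 ≤ N := le_trans (Nat.cast_nonneg _) hN
  have hC : 0 < lam + N * ((2 ^ d) ^ k * (Cc d k q l / lam) ^ (q + 1)) := by
    unfold Cc; positivity
  induction j with
  | zero => intro t o; simpa [Val_zero] using hF o
  | succ j ih =>
    intro t o
    rw [show (j + 1) * k = k + j * k by ring, Val_add hτ hU, pow_succ, ← mul_assoc]
    refine block σ (mul_pos hK (pow_pos hC j)) hl hq hk lam hlam
      (fun p => runF τ t k o p.1 p.2)
      (Finset.univ ×ˢ insert o.2 ((Finset.range k).image fun i => some (t + i + 1)))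
      (fun p => Finset.mem_product.2 ⟨Finset.mem_univ _, runF_label hlab k t o p.1 p.2⟩)
      (fun o' => measurableSet_runF hτ t k o o') _ (measurable_Val hτ _ _ hU) (ih (t + k)) N ?_
    refine le_trans ?_ hN
    rw [Finset.card_product, Finset.card_univ]
    have : (insert o.2 ((Finset.range k).image fun i => some (t + i + 1))).card ≤ k + 1 :=
      (Finset.card_insert_le _ _).trans
        (Nat.add_le_add_right (Finset.card_image_le.trans (by simp)) 1)
    exact_mod_cast Nat.mul_le_mul_left _ this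

end Crest.Agent.R322
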