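import Crest.Agent.R322.Prog

/-! The uniform law on the sphere: caps, invariance, second moments, the reflection bound. -/

set_option autoImplicit false

namespace Crest.Agent.R322

open MeasureTheory ProbabilityTheory Set Metric
open scoped RealInnerProductSpace ENNReal NNReal Pointwise
open Crest.StreamLearn

variable {d : ℕ}

theorem vol_ball_ne_zero : (volume : Measure (E d)) (ball 0 1) ≠ 0 :=
  (measure_ball_pos _ 0 one_pos).ne'

theorem sphereUniform_apply (hd : 0 < d) {A : Set (Sphere d)} (hA : MeasurableSet A) :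
    sphereUniform d A = ((volume : Measure (E d)) (ball 0 1))⁻¹ *
      volume (Ioo (0 : ℝ) 1 • ((↑) '' A : Set (E d))) := by
  have hd0 : (d : ℝ≥0∞) ≠ 0 := by exact_mod_cast hd.ne'
  rw [sphereUniform, Measure.smul_apply, Measure.toSphere_apply_univ, Measure.toSphere_apply' _ hA,
    smul_eq_mul, finrank_euclideanSpace, Fintype.card_fin,
    ENNReal.mul_inv (Or.inl hd0) (Or.inl (ENNReal.natCast_ne_top d)), mul_mul_mul_comm,
    ENNReal.inv_mul_cancel hd0 (ENNReal.natCast_ne_top d), one_mul]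

theorem isProb_sphereUniform (hd : 0 < d) : IsProbabilityMeasure (sphereUniform d) := by
  constructor
  have hd0 : (d : ℝ≥0∞) ≠ 0 := by exact_mod_cast hd.ne'
  rw [sphereUniform, Measure.smul_apply, smul_eq_mul]
  refine ENNReal.inv_mul_cancel ?_ (measure_ne_top _ _)
  rw [Measure.toSphere_apply_univ, finrank_euclideanSpace, Fintype.card_fin]
  exact mul_ne_zero hd0 vol_ball_ne_zero

/-- The uniform law on the sphere, as a measure on the ambient space. -/
noncomputable def sig (d : ℕ) : Measure (E d) := (sphereUniform d).map Subtype.val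

theorem isProb_sig (hd : 0 < d) : IsProbabilityMeasure (sig d) := by
  have := isProb_sphereUniform hd
  exact Measure.isProbabilityMeasure_map measurable_subtype_coe.aemeasurable

theorem sig_apply (hd : 0 < d) {A : Set (E d)} (hA : MeasurableSet A) :
    sig d A = ((volume : Measure (E d)) (ball 0 1))⁻¹ *
      volume (Ioo (0 : ℝ) 1 • (sphere 0 1 ∩ A)) := by
  rw [sig, Measure.map_apply measurable_subtype_coe hA,
    sphereUniform_apply hd (measurable_subtype_coe hA), Subtype.image_preimage_coe]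

theorem ae_sig : ∀ᵐ s ∂(sig d), ‖s‖ = 1 := by
  rw [sig, ae_map_iff measurable_subtype_coe.aemeasurable
    (measurableSet_eq_fun (by fun_prop) measurable_const)]
  exact Filter.Eventually.of_forall fun s => by simp

theorem sig_closedBall (hd : 0 < d) (x : E d) (ρ : ℝ) (hρ : 0 < ρ) :
    sig d (closedBall x ρ) ≤ ENNReal.ofReal (2 * 3 ^ d * ρ ^ (d - 1)) := by
  have := isProb_sig hd
  rcases le_total 1 ρ with h1 | h1
  · refine prob_le_one.trans ?_
    rw [ENNReal.one_le_ofReal]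
    have h2 : (1 : ℝ) ≤ 3 ^ d := one_le_pow₀ (by norm_num)
    have h3 : (1 : ℝ) ≤ ρ ^ (d - 1) := one_le_pow₀ h1
    nlinarith
  rw [sig_apply hd measurableSet_closedBall]
  rcases eq_empty_or_nonempty (sphere (0 : E d) 1 ∩ closedBall x ρ) with h | ⟨a₀, ha₀, ha₀x⟩
  · simp [h]
  set m := ⌊1 / ρ⌋₊
  have hsub : Ioo (0 : ℝ) 1 • (sphere (0 : E d) 1 ∩ closedBall x ρ) ⊆
      ⋃ j ∈ Finset.range (m + 1), closedBall (((j : ℝ) * ρ) • a₀) (3 * ρ) := by
    rintro _ ⟨t, ⟨ht0, ht1⟩, a, ⟨ha, hax⟩, rfl⟩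
    simp only [mem_iUnion, Finset.mem_range]
    refine ⟨⌊t / ρ⌋₊, Nat.lt_succ_of_le (Nat.floor_le_floor (by gcongr)), ?_⟩
    have h2 : (⌊t / ρ⌋₊ : ℝ) ≤ t / ρ := Nat.floor_le (by positivity)
    have h3 : t / ρ < ⌊t / ρ⌋₊ + 1 := Nat.lt_floor_add_one _
    rw [le_div_iff₀ hρ] at h2
    rw [div_lt_iff₀ hρ] at h3
    rw [mem_closedBall, dist_eq_norm] at hax ha₀x ⊢
    have ha₀' : ‖a₀‖ = 1 := by simpa using ha₀
    have h4 : ‖a - a₀‖ ≤ 2 * ρ := by
      calc ‖a - a₀‖ = ‖(a - x) - (a₀ - x)‖ := by congr 1; abel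
        _ ≤ ‖a - x‖ + ‖a₀ - x‖ := norm_sub_le _ _
        _ ≤ 2 * ρ := by linarith
    calc ‖t • a - ((⌊t / ρ⌋₊ : ℝ) * ρ) • a₀‖
        = ‖t • (a - a₀) + (t - (⌊t / ρ⌋₊ : ℝ) * ρ) • a₀‖ := by
          congr 1; rw [smul_sub, sub_smul]; abel
      _ ≤ ‖t • (a - a₀)‖ + ‖(t - (⌊t / ρ⌋₊ : ℝ) * ρ) • a₀‖ := norm_add_le _ _
      _ = t * ‖a - a₀‖ + (t - (⌊t / ρ⌋₊ : ℝ) * ρ) := by
          rw [norm_smul, norm_smul, ha₀', mul_one, Real.norm_eq_abs, Real.norm_eq_abs,
            abs_of_pos ht0, abs_of_nonneg (by linarith)]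
      _ ≤ 3 * ρ := by nlinarith [norm_nonneg (a - a₀)]
  have h5 : volume (Ioo (0 : ℝ) 1 • (sphere (0 : E d) 1 ∩ closedBall x ρ)) ≤
      (volume : Measure (E d)) (ball 0 1) * ENNReal.ofReal (2 * 3 ^ d * ρ ^ (d - 1)) := by
    refine (measure_mono hsub).trans ((measure_biUnion_finset_le _ _).trans ?_)
    simp only [Measure.addHaar_closedBall volume _ (by positivity : 0 ≤ 3 * ρ),
      finrank_euclideanSpace, Fintype.card_fin, Finset.sum_const, Finset.card_range, nsmul_eq_mul]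
    rw [← mul_assoc, mul_comm]
    gcongr
    rw [← ENNReal.ofReal_natCast, ← ENNReal.ofReal_mul (by positivity)]
    apply ENNReal.ofReal_le_ofReal
    have h6 : ((m + 1 : ℕ) : ℝ) * ρ ≤ 2 := by
      have : (m : ℝ) ≤ 1 / ρ := Nat.floor_le (by positivity)
      rw [le_div_iff₀ hρ] at this
      push_cast; linarith
    obtain ⟨e, rfl⟩ : ∃ e, d = e + 1 := ⟨d - 1, by omega⟩
    rw [mul_pow, Nat.add_sub_cancel, pow_succ ρ]
    have : (0 : ℝ) ≤ 3 ^ (e + 1) * ρ ^ e := by positivity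
    nlinarith
  calc _ ≤ ((volume : Measure (E d)) (ball 0 1))⁻¹ *
      ((volume : Measure (E d)) (ball 0 1) * ENNReal.ofReal (2 * 3 ^ d * ρ ^ (d - 1))) := by gcongr
    _ = _ := by
      rw [← mul_assoc, ENNReal.inv_mul_cancel vol_ball_ne_zero measure_ball_lt_top.ne, one_mul]

theorem sig_preserving (hd : 0 < d) (f : E d ≃ₗᵢ[ℝ] E d) : MeasurePreserving f (sig d) (sig d) := by
  refine ⟨f.continuous.measurable, ?_⟩
  ext A hA
  rw [Measure.map_apply f.continuous.measurable hA, sig_apply hd hA,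
    sig_apply hd (f.continuous.measurable hA)]
  congr 1
  have : Ioo (0 : ℝ) 1 • (sphere 0 1 ∩ f ⁻¹' A) = f ⁻¹' (Ioo (0 : ℝ) 1 • (sphere 0 1 ∩ A)) := by
    ext y
    constructor
    · rintro ⟨t, ht, a, ⟨ha, haA⟩, rfl⟩
      exact ⟨t, ht, f a, ⟨by simpa using ha, haA⟩, by simp⟩
    · rintro ⟨t, ht, a, ⟨ha, haA⟩, h⟩
      refine ⟨t, ht, f.symm a, ⟨by simpa using ha, by simpa using haA⟩, ?_⟩
      apply f.injective
      simpa using h
  rw [this]
  exact f.measurePreserving.measure_preimage_emb f.toHomeomorph.measurableEmbedding _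

theorem sig_sq_moment (hd : 0 < d) (e : E d) (he : ‖e‖ = 1) :
    d * ∫⁻ s, ENNReal.ofReal (⟪e, s⟫ ^ 2) ∂(sig d) = 1 := by
  have := isProb_sig hd
  have hm : ∀ v : E d, Measurable fun s : E d => ENNReal.ofReal (⟪v, s⟫ ^ 2) := fun v => by
    fun_prop
  have h1 : ∀ v : E d, ‖v‖ = 1 → ∫⁻ s, ENNReal.ofReal (⟪v, s⟫ ^ 2) ∂(sig d) =
      ∫⁻ s, ENNReal.ofReal (⟪e, s⟫ ^ 2) ∂(sig d) := by
    intro v hv
    have h2 := Submodule.reflection_sub (he.trans hv.symm)
    generalize (ℝ ∙ (e - v))ᗮ.reflection = f at h2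
    rw [← (sig_preserving hd f).lintegral_comp (hm v)]
    congr 1
    ext s
    rw [← h2, LinearIsometryEquiv.inner_map_map]
  let b := EuclideanSpace.basisFun (Fin d) ℝ
  calc d * ∫⁻ s, ENNReal.ofReal (⟪e, s⟫ ^ 2) ∂(sig d)
      = ∑ i, ∫⁻ s, ENNReal.ofReal (⟪b i, s⟫ ^ 2) ∂(sig d) := by
        rw [Finset.sum_congr rfl fun i _ => h1 (b i) (b.orthonormal.1 i)]
        simp
    _ = ∫⁻ s, ∑ i, ENNReal.ofReal (⟪b i, s⟫ ^ 2) ∂(sig d) :=
        (lintegral_finsetSum _ fun i _ => hm (b i)).symm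
    _ = ∫⁻ _s, 1 ∂(sig d) := by
        refine lintegral_congr_ae (ae_sig.mono fun s hs => ?_)
        dsimp only
        rw [← ENNReal.ofReal_sum_of_nonneg fun i _ => sq_nonneg _, b.sum_sq_inner_right, hs]
        simp
    _ = 1 := by simp

theorem sig_proj_moment (hd : 0 < d) (V : Submodule ℝ (E d)) :
    d * ∫⁻ s, ENNReal.ofReal (‖V.starProjection s‖ ^ 2) ∂(sig d) = Module.finrank ℝ V := by
  let b := stdOrthonormalBasis ℝ V
  have h1 : ∀ s : E d, ENNReal.ofReal (‖V.starProjection s‖ ^ 2) =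
      ∑ i, ENNReal.ofReal (⟪(b i : E d), s⟫ ^ 2) := by
    intro s
    rw [← ENNReal.ofReal_sum_of_nonneg fun i _ => sq_nonneg _]
    congr 1
    have := b.sum_sq_inner_right (V.orthogonalProjectionOnto s)
    simp only [Submodule.inner_orthogonalProjectionOnto_eq_of_mem_left] at this
    rw [this]
    rfl
  simp_rw [h1]
  rw [lintegral_finsetSum _ fun i _ => by fun_prop, Finset.mul_sum,
    Finset.sum_congr rfl fun i _ => sig_sq_moment hd (b i : E d) (b.orthonormal.1 i)]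
  simp

/-- The reflection bound. -/
theorem reflect_bound (hd : 0 < d) (V : Submodule ℝ (E d)) (T : ℕ) (hV : Module.finrank ℝ V ≤ T)
    (A : Set (E d)) (hA : MeasurableSet A)
    (hR : ∀ s, ‖s‖ = 1 → s ∈ A → V.reflection s ∈ A → ‖s - V.reflection s‖ ≤ 1 / 5) :
    sig d A ≤ ENNReal.ofReal (1 / 2 + 50 / 99 * (T / d)) := by
  have := isProb_sig hd
  have hd' : (0 : ℝ) < d := by exact_mod_cast hd
  have hP := sig_preserving hd V.reflection
  have h1 : sig d A + sig d A = sig d (A ∪ V.reflection ⁻¹' A) + sig d (A ∩ V.reflection ⁻¹' A) := by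
    rw [measure_union_add_inter _ (hP.measurable hA), hP.measure_preimage hA.nullMeasurableSet]
  have h2 : sig d (A ∩ V.reflection ⁻¹' A) ≤
      sig d {s | ENNReal.ofReal (99 / 100) ≤ ENNReal.ofReal (‖V.starProjection s‖ ^ 2)} := by
    refine measure_mono_ae (ae_sig.mono fun s hs => ?_)
    rintro ⟨hs1, hs2⟩
    have h3 := hR s hs hs1 hs2
    apply ENNReal.ofReal_le_ofReal
    have h4 := V.norm_sq_eq_add_norm_sq_starProjection s
    rw [Submodule.starProjection_orthogonal_val, hs] at h4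
    have h5 : s - V.reflection s = (2 : ℝ) • (s - V.starProjection s) := by
      rw [Submodule.reflection_apply, two_smul, two_smul]; abel
    rw [h5, norm_smul] at h3
    simp only [Real.norm_ofNat] at h3
    nlinarith [norm_nonneg (s - V.starProjection s)]
  have h3 := mul_meas_ge_le_lintegral (μ := sig d)
    (f := fun s => ENNReal.ofReal (‖V.starProjection s‖ ^ 2)) (by fun_prop) (ENNReal.ofReal (99 / 100))
  have h4 := sig_proj_moment hd V
  set u := sig d (A ∩ V.reflection ⁻¹' A)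
  have h5 : d * (ENNReal.ofReal (99 / 100) * u) ≤ T := by
    calc _ ≤ d * ∫⁻ s, ENNReal.ofReal (‖V.starProjection s‖ ^ 2) ∂(sig d) := by
          gcongr
          exact le_trans (by gcongr) h3
      _ = _ := h4
      _ ≤ T := by exact_mod_cast hV
  have hu : u ≠ ⊤ := measure_ne_top _ _
  have h6 : (d : ℝ) * (99 / 100 * u.toReal) ≤ T := by
    have := ENNReal.toReal_mono (ENNReal.natCast_ne_top T) h5
    simpa [ENNReal.toReal_ofReal (show (0 : ℝ) ≤ 99 / 100 by norm_num)] using this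
  have h7 : (sig d A).toReal + (sig d A).toReal ≤ 1 + u.toReal := by
    rw [← ENNReal.toReal_add (measure_ne_top _ _) (measure_ne_top _ _), h1,
      ENNReal.toReal_add (measure_ne_top _ _) hu]
    gcongr
    exact measureReal_le_one
  rw [← ENNReal.ofReal_toReal (measure_ne_top (sig d) A)]
  apply ENNReal.ofReal_le_ofReal
  have h8 : u.toReal ≤ 100 / 99 * (T / d) := by
    rw [← mul_div_assoc, le_div_iff₀ hd']; nlinarith
  linarith

theorem norm_sub_le_of_angle (u s : E d) (hu : ‖u‖ = 1) (hs : ‖s‖ = 1) (ε : ℝ) (hε : 0 ≤ ε)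
    (hε1 : ε ≤ 1) (h : Real.arccos ⟪u, s⟫ ≤ ε) : ‖s - u‖ ≤ ε := by
  have h1 : |⟪u, s⟫| ≤ 1 := by simpa [hu, hs] using abs_real_inner_le_norm u s
  rw [abs_le] at h1
  have h2 : Real.cos ε ≤ ⟪u, s⟫ := by
    rw [← Real.cos_arccos h1.1 h1.2]
    exact Real.cos_le_cos_of_nonneg_of_le_pi (Real.arccos_nonneg _)
      (by linarith [Real.pi_gt_three]) h
  have h3 := Real.one_sub_sq_div_two_le_cos (x := ε)
  have h4 : ‖s - u‖ ^ 2 ≤ ε ^ 2 := by
    rw [@norm_sub_sq_real, hu, hs, real_inner_comm]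
    linarith
  exact (pow_le_pow_iff_left₀ (norm_nonneg _) hε two_ne_zero).1 h4

/-- The terminal Frostman bound. -/
theorem frost_cap (hd : 0 < d) {l : ℕ} (hl : l ≤ d - 1) (u : E d) (ε : ℝ) (hε : 0 < ε)
    (U : E d → ℝ≥0∞) (hU : ∀ s, ‖s‖ = 1 → U s ≤ (closedBall u ε).indicator 1 s) :
    Frost ((sig d).withDensity U) (2 * 3 ^ d * ε ^ (d - 1 - l)) l := by
  intro c r hr
  rw [withDensity_apply _ measurableSet_closedBall]
  have h1 : ∫⁻ s in closedBall c r, U s ∂(sig d) ≤ sig d (closedBall u ε ∩ closedBall c r) := by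
    rw [← Measure.restrict_apply measurableSet_closedBall,
      ← lintegral_indicator_one measurableSet_closedBall]
    exact lintegral_mono_ae (ae_restrict_of_ae (ae_sig.mono hU))
  obtain ⟨e, he⟩ := Nat.exists_eq_add_of_le hl
  have he' : d - 1 - l = e := by omega
  rw [he']
  refine h1.trans ?_
  rcases le_total r ε with h | h
  · refine (measure_mono inter_subset_right).trans ((sig_closedBall hd c r hr).trans ?_)
    apply ENNReal.ofReal_le_ofReal
    rw [he, pow_add, mul_assoc (2 * 3 ^ d), mul_comm (ε ^ e)]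
    gcongr
  · refine (measure_mono inter_subset_left).trans ((sig_closedBall hd u ε hε).trans ?_)
    apply ENNReal.ofReal_le_ofReal
    rw [he, pow_add, mul_assoc (2 * 3 ^ d), mul_comm (ε ^ e)]
    gcongr

end Crest.Agent.R322
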