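import Crest.Agent.R322.Gauss

/-! The tube lemma for Frostman measures (row 322). -/

set_option autoImplicit false

namespace Crest.Agent.R322

open MeasureTheory ProbabilityTheory Set Metric
open scoped RealInnerProductSpace ENNReal NNReal
open Crest.StreamLearn

variable {d : ℕ}

/-- Frostman condition with constant `K` and exponent `l`. -/
def Frost (κ : Measure (E d)) (K : ℝ) (l : ℕ) : Prop :=
  ∀ (x : E d) (ρ : ℝ), 0 < ρ → κ (closedBall x ρ) ≤ ENNReal.ofReal (K * ρ ^ l)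

theorem continuous_hd (V : Submodule ℝ (E d)) : Continuous (hd V) := by
  unfold hd; fun_prop

theorem hd_le (V : Submodule ℝ (E d)) (a : E d) : hd V a ≤ ‖a‖ := by
  unfold hd
  rw [← Submodule.starProjection_orthogonal_val]
  exact Submodule.norm_starProjection_apply_le _ _

theorem hd_nonneg (V : Submodule ℝ (E d)) (a : E d) : 0 ≤ hd V a := norm_nonneg _

theorem measurableSet_tube (V : Submodule ℝ (E d)) (s₀ : E d) (δ : ℝ) :
    MeasurableSet {s : E d | ‖s‖ ≤ 1 ∧ hd V (s - s₀) ≤ δ} := by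
  have h1 : IsClosed {s : E d | ‖s‖ ≤ 1} := isClosed_le (by fun_prop) continuous_const
  have h2 : IsClosed {s : E d | hd V (s - s₀) ≤ δ} :=
    isClosed_le ((continuous_hd V).comp (continuous_id.sub continuous_const)) continuous_const
  exact (h1.inter h2).measurableSet

theorem tube_measure (κ : Measure (E d)) [SFinite κ] {l q : ℕ} (hκ : Frost κ 1 l)
    (V : Submodule ℝ (E d)) (hV : Module.finrank ℝ V ≤ q) (s₀ : E d) (hs₀ : ‖s₀‖ ≤ 1)
    (δ : ℝ) (hδ : 0 < δ) (hδ2 : δ ≤ 2) :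
    κ {s | ‖s‖ ≤ 1 ∧ hd V (s - s₀) ≤ δ} ≤ ENNReal.ofReal ((4 / δ) ^ q * (2 * δ) ^ l) := by
  set μ : Measure V := Measure.addHaar with hμ
  set m := Module.finrank ℝ V
  set ω := μ (ball 0 1)
  have hω0 : ω ≠ 0 := (measure_ball_pos μ 0 one_pos).ne'
  have hωt : ω ≠ ⊤ := measure_ball_lt_top.ne
  set T := {s : E d | ‖s‖ ≤ 1 ∧ hd V (s - s₀) ≤ δ}
  have hT : MeasurableSet T := measurableSet_tube V s₀ δ
  set G : Set (E d × V) := {p | p.2 ∈ closedBall (0 : V) 4 ∧ p.1 ∈ closedBall (s₀ + (p.2 : E d)) (2 * δ)}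
  have hG : MeasurableSet G := by
    have h1 : IsClosed {p : E d × V | dist p.2 0 ≤ 4} := isClosed_le (by fun_prop) continuous_const
    have h2 : IsClosed {p : E d × V | dist p.1 (s₀ + (p.2 : E d)) ≤ 2 * δ} :=
      isClosed_le (by fun_prop) continuous_const
    exact (h1.inter h2).measurableSet
  have h1 : ∀ s : E d, T.indicator (fun _ => ENNReal.ofReal (δ ^ m) * ω) s ≤
      μ (Prod.mk s ⁻¹' G) := by
    intro s
    by_cases hs : s ∈ T
    · rw [indicator_of_mem hs]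
      set v : V := ⟨V.starProjection (s - s₀), V.starProjection_apply_mem _⟩
      rw [← Measure.addHaar_closedBall μ v hδ.le]
      refine measure_mono fun w hw => ?_
      have hv : ‖v‖ ≤ 2 := by
        calc ‖v‖ = ‖V.starProjection (s - s₀)‖ := rfl
          _ ≤ ‖s - s₀‖ := Submodule.norm_starProjection_apply_le _ _
          _ ≤ ‖s‖ + ‖s₀‖ := norm_sub_le _ _
          _ ≤ 2 := by linarith [hs.1]
      rw [mem_closedBall, dist_eq_norm] at hw
      refine ⟨?_, ?_⟩
      · simp only [mem_closedBall, dist_zero_right]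
        calc ‖w‖ = ‖(w - v) + v‖ := by simp
          _ ≤ ‖w - v‖ + ‖v‖ := norm_add_le _ _
          _ ≤ 4 := by linarith
      · simp only [mem_closedBall, dist_eq_norm]
        have hw' : ‖(w : E d) - (v : E d)‖ ≤ δ := hw
        have h2 : ‖(s - s₀) - (v : E d)‖ ≤ δ := hs.2
        calc ‖s - (s₀ + (w : E d))‖ = ‖((s - s₀) - (v : E d)) - ((w : E d) - (v : E d))‖ := by
              congr 1; abel
          _ ≤ ‖(s - s₀) - (v : E d)‖ + ‖(w : E d) - (v : E d)‖ := norm_sub_le _ _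
          _ ≤ 2 * δ := by linarith
    · rw [indicator_of_notMem hs]; exact zero_le
  have h2 : ∀ v : V, κ ((fun s => (s, v)) ⁻¹' G) ≤
      (closedBall (0 : V) 4).indicator (fun _ => ENNReal.ofReal ((2 * δ) ^ l)) v := by
    intro v
    by_cases hv : v ∈ closedBall (0 : V) 4
    · rw [indicator_of_mem hv]
      have := hκ (s₀ + (v : E d)) (2 * δ) (by positivity)
      rw [one_mul] at this
      exact le_trans (measure_mono fun s hs => hs.2) this
    · rw [indicator_of_notMem hv]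
      have : (fun s => (s, v)) ⁻¹' G = ∅ := by
        ext s; simp only [mem_preimage, mem_empty_iff_false, iff_false]
        exact fun h => hv h.1
      simp [this]
  have h3 : ENNReal.ofReal (δ ^ m) * ω * κ T ≤
      ENNReal.ofReal ((2 * δ) ^ l) * (ENNReal.ofReal (4 ^ m) * ω) := by
    calc ENNReal.ofReal (δ ^ m) * ω * κ T
        = ∫⁻ s, T.indicator (fun _ => ENNReal.ofReal (δ ^ m) * ω) s ∂κ := by
          rw [lintegral_indicator_const hT]
      _ ≤ ∫⁻ s, μ (Prod.mk s ⁻¹' G) ∂κ := lintegral_mono h1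
      _ = (κ.prod μ) G := (Measure.prod_apply hG).symm
      _ = ∫⁻ v, κ ((fun s => (s, v)) ⁻¹' G) ∂μ := Measure.prod_apply_symm hG
      _ ≤ ∫⁻ v, (closedBall (0 : V) 4).indicator (fun _ => ENNReal.ofReal ((2 * δ) ^ l)) v ∂μ :=
          lintegral_mono h2
      _ = _ := by
          rw [lintegral_indicator_const measurableSet_closedBall,
            Measure.addHaar_closedBall μ 0 (by norm_num)]
  have h4 : ENNReal.ofReal (4 ^ m) ≤ ENNReal.ofReal (δ ^ m) * ENNReal.ofReal ((4 / δ) ^ q) := by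
    rw [← ENNReal.ofReal_mul (by positivity)]
    apply ENNReal.ofReal_le_ofReal
    have : (4 : ℝ) ^ m = δ ^ m * (4 / δ) ^ m := by
      rw [← mul_pow]; congr 1; field_simp
    rw [this]
    gcongr
    rw [le_div_iff₀ hδ]; linarith
  have h5 : ENNReal.ofReal (δ ^ m) * ω * κ T ≤
      ENNReal.ofReal (δ ^ m) * ω * ENNReal.ofReal ((4 / δ) ^ q * (2 * δ) ^ l) := by
    refine h3.trans ?_
    rw [ENNReal.ofReal_mul (by positivity)]
    calc _ ≤ ENNReal.ofReal ((2 * δ) ^ l) *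
          (ENNReal.ofReal (δ ^ m) * ENNReal.ofReal ((4 / δ) ^ q) * ω) := by gcongr
      _ = _ := by ring
  have h6 : ENNReal.ofReal (δ ^ m) * ω ≠ 0 :=
    mul_ne_zero (by simpa using pow_pos hδ m) hω0
  exact (ENNReal.mul_le_mul_iff_right h6 (ENNReal.mul_ne_top ENNReal.ofReal_ne_top hωt)).1 h5

theorem inv_pow_le_tsum (h : ℝ) (h0 : 0 ≤ h) (h2 : h ≤ 2) (k : ℕ) :
    (ENNReal.ofReal h)⁻¹ ^ k ≤
      ∑' j : ℕ, if h ≤ 2 * (1 / 2) ^ j then ENNReal.ofReal ((2 ^ j) ^ k) else 0 := by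
  rcases h0.eq_or_lt with h0 | h0
  · subst h0
    have : ∀ j : ℕ, (1 : ℝ≥0∞) ≤
        if (0 : ℝ) ≤ 2 * (1 / 2) ^ j then ENNReal.ofReal ((2 ^ j) ^ k) else 0 := by
      intro j
      rw [if_pos (by positivity), ENNReal.one_le_ofReal]
      exact one_le_pow₀ (one_le_pow₀ (by norm_num))
    refine le_trans le_top ?_
    rw [← ENNReal.tsum_const_eq_top_of_ne_zero (α := ℕ) (one_ne_zero)]
    exact ENNReal.tsum_le_tsum this
  · obtain ⟨n, hn1, hn2⟩ := exists_nat_pow_near_of_lt_one (x := h / 2) (y := 1 / 2)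
      (by positivity) (by linarith) (by norm_num) (by norm_num)
    refine le_trans ?_ (ENNReal.le_tsum n)
    rw [if_pos (by linarith), ← ENNReal.ofReal_inv_of_pos h0, ← ENNReal.ofReal_pow (by positivity)]
    apply ENNReal.ofReal_le_ofReal
    gcongr
    rw [pow_succ] at hn1
    have : (1 / 2 : ℝ) ^ n = (2 ^ n)⁻¹ := by rw [one_div, inv_pow]
    rw [this] at hn1
    rw [inv_le_comm₀ h0 (by positivity)]
    linarith

theorem tube_integral (κ : Measure (E d)) [SFinite κ] {l q k : ℕ} (hκ : Frost κ 1 l)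
    (hsupp : κ (closedBall 0 1)ᶜ = 0) (hl : q + k + 1 ≤ l)
    (V : Submodule ℝ (E d)) (hV : Module.finrank ℝ V ≤ q) (s₀ : E d) (hs₀ : ‖s₀‖ ≤ 1) :
    ∫⁻ s, (ENNReal.ofReal (hd V (s - s₀)))⁻¹ ^ k ∂κ ≤ ENNReal.ofReal (2 * 2 ^ q * 4 ^ l) := by
  have hT : ∀ j : ℕ, MeasurableSet {s : E d | ‖s‖ ≤ 1 ∧ hd V (s - s₀) ≤ 2 * (1 / 2) ^ j} := fun j =>
    measurableSet_tube V s₀ _
  have hae : ∀ᵐ s ∂κ, ‖s‖ ≤ 1 := by
    rw [ae_iff]
    convert hsupp using 2
    ext s; simp
  calc ∫⁻ s, (ENNReal.ofReal (hd V (s - s₀)))⁻¹ ^ k ∂κ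
      ≤ ∫⁻ s, ∑' j : ℕ, {s : E d | ‖s‖ ≤ 1 ∧ hd V (s - s₀) ≤ 2 * (1 / 2) ^ j}.indicator
          (fun _ => ENNReal.ofReal ((2 ^ j) ^ k)) s ∂κ := by
        refine lintegral_mono_ae (hae.mono fun s hs => ?_)
        refine (inv_pow_le_tsum _ (hd_nonneg _ _) ?_ k).trans (ENNReal.tsum_le_tsum fun j => ?_)
        · calc hd V (s - s₀) ≤ ‖s - s₀‖ := hd_le _ _
            _ ≤ ‖s‖ + ‖s₀‖ := norm_sub_le _ _
            _ ≤ 2 := by linarith
        · split_ifs with h
          · rw [indicator_of_mem (show s ∈ {s : E d | ‖s‖ ≤ 1 ∧ hd V (s - s₀) ≤ 2 * (1 / 2) ^ j}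
              from ⟨hs, h⟩)]
          · exact zero_le
    _ = ∑' j : ℕ, ENNReal.ofReal ((2 ^ j) ^ k) *
          κ {s : E d | ‖s‖ ≤ 1 ∧ hd V (s - s₀) ≤ 2 * (1 / 2) ^ j} := by
        rw [lintegral_tsum fun j => (measurable_const.indicator (hT j)).aemeasurable]
        congr 1
        ext j
        rw [lintegral_indicator_const (hT j)]
    _ ≤ ∑' j : ℕ, ENNReal.ofReal (2 ^ q * 4 ^ l) * (2⁻¹) ^ j := by
        refine ENNReal.tsum_le_tsum fun j => ?_
        have hle : (2 : ℝ) * (1 / 2) ^ j ≤ 2 := by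
          have : (1 / 2 : ℝ) ^ j ≤ 1 := pow_le_one₀ (by norm_num) (by norm_num)
          linarith
        refine le_trans (mul_le_mul_right (tube_measure κ hκ V hV s₀ hs₀ _ (by positivity) hle) _) ?_
        have e2 : (2⁻¹ : ℝ≥0∞) ^ j = ENNReal.ofReal ((1 / 2) ^ j) := by
          rw [ENNReal.ofReal_pow (by norm_num), one_div, ENNReal.ofReal_inv_of_pos (by norm_num)]
          simp
        rw [e2, ← ENNReal.ofReal_mul (by positivity), ← ENNReal.ofReal_mul (by positivity)]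
        apply ENNReal.ofReal_le_ofReal
        obtain ⟨r, rfl⟩ := Nat.exists_eq_add_of_le hl
        set u : ℝ := (1 / 2) ^ j with hu
        have hu0 : 0 < u := by positivity
        have hu1 : u ≤ 1 := pow_le_one₀ (by norm_num) (by norm_num)
        have h2 : (2 : ℝ) ^ j = u⁻¹ := by rw [hu, one_div, inv_pow, inv_inv]
        rw [h2]
        have h3 : 4 / (2 * u) = 2 * u⁻¹ := by field_simp; norm_num
        have h4 : 2 * (2 * u) = 4 * u := by ring
        rw [h3, h4, mul_pow, mul_pow]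
        have h5 : u⁻¹ ^ k * (2 ^ q * u⁻¹ ^ q * (4 ^ (q + k + 1 + r) * u ^ (q + k + 1 + r))) =
            2 ^ q * 4 ^ (q + k + 1 + r) * u * u ^ r := by
          rw [pow_add u, pow_add u, pow_add u, inv_pow, inv_pow]
          field_simp
        rw [h5]
        have : u ^ r ≤ 1 := pow_le_one₀ hu0.le hu1
        exact mul_le_of_le_one_right (by positivity) this
    _ = ENNReal.ofReal (2 * 2 ^ q * 4 ^ l) := by
        rw [ENNReal.tsum_mul_left, ENNReal.tsum_geometric, ENNReal.one_sub_inv_two, inv_inv,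
          mul_assoc, ENNReal.ofReal_mul (by norm_num : (0 : ℝ) ≤ 2), mul_comm]
        simp

end Crest.Agent.R322
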