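import Crest.Agent.R322.Moment

/-! The reference set of measurement vectors and its volume (row 322). -/

set_option autoImplicit false

namespace Crest.Agent.R322

open MeasureTheory ProbabilityTheory Set Metric
open scoped RealInnerProductSpace ENNReal NNReal
open Crest.StreamLearn

variable {d k : ℕ}

/-- The possible (sample matrix, perturbed measurement vector) pairs for signals in the unit ball. -/
def Yset (d k : ℕ) : Set ((Fin k → E d) × (Fin k → ℝ)) :=
  {p | ∀ z : Fin k → ℝ, (∑ j, z j * p.2 j) ^ 2 ≤ 2 * (‖∑ j, z j • p.1 j‖ ^ 2 + d * ∑ j, z j ^ 2)}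

theorem isClosed_Yset : IsClosed (Yset d k) := by
  have : Yset d k = ⋂ z : Fin k → ℝ, {p : (Fin k → E d) × (Fin k → ℝ) |
      (∑ j, z j * p.2 j) ^ 2 ≤ 2 * (‖∑ j, z j • p.1 j‖ ^ 2 + d * ∑ j, z j ^ 2)} := by
    ext p; simp [Yset]
  rw [this]
  exact isClosed_iInter fun z => isClosed_le (by fun_prop) (by fun_prop)

theorem mem_Yset (hk : k ≤ d) (X : Fin k → E d) (y : Fin k → ℝ) (s : E d) (hs : ‖s‖ ≤ 1)
    (hy : ∀ j, |y j - ⟪X j, s⟫| ≤ 1) : (X, y) ∈ Yset d k := by
  intro z
  have h1 : ∑ j, z j * y j = ⟪∑ j, z j • X j, s⟫ + ∑ j, z j * (y j - ⟪X j, s⟫) := by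
    rw [sum_inner, ← Finset.sum_add_distrib]
    refine Finset.sum_congr rfl fun j _ => ?_
    rw [real_inner_smul_left]; ring
  have h2 : ⟪∑ j, z j • X j, s⟫ ^ 2 ≤ ‖∑ j, z j • X j‖ ^ 2 := by
    have := abs_real_inner_le_norm (∑ j, z j • X j) s
    rw [← sq_abs]
    have h3 : ‖∑ j, z j • X j‖ * ‖s‖ ≤ ‖∑ j, z j • X j‖ := mul_le_of_le_one_right (norm_nonneg _) hs
    gcongr
    exact this.trans h3
  have h3 : (∑ j, z j * (y j - ⟪X j, s⟫)) ^ 2 ≤ d * ∑ j, z j ^ 2 := by
    refine (Finset.sum_mul_sq_le_sq_mul_sq _ _ _).trans ?_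
    rw [mul_comm]
    have h0 : 0 ≤ ∑ j, z j ^ 2 := Finset.sum_nonneg fun j _ => sq_nonneg _
    gcongr
    calc ∑ j, (y j - ⟪X j, s⟫) ^ 2 ≤ ∑ _j : Fin k, (1 : ℝ) :=
          Finset.sum_le_sum fun j _ => by rw [← sq_abs]; exact pow_le_one₀ (abs_nonneg _) (hy j)
      _ = k := by simp
      _ ≤ d := by exact_mod_cast hk
  show (∑ j, z j * y j) ^ 2 ≤ 2 * (‖∑ j, z j • X j‖ ^ 2 + d * ∑ j, z j ^ 2)
  rw [h1]
  nlinarith [sq_nonneg (⟪∑ j, z j • X j, s⟫ - ∑ j, z j * (y j - ⟪X j, s⟫))]

/-- The normalising factor. -/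
noncomputable def Dn (X : Fin k → E d) : ℝ :=
  Real.exp (2 * d) * 2 ^ k * Real.exp ((∑ j, ‖X j‖ ^ 2) / (2 * d))

theorem Dn_pos (X : Fin k → E d) : 0 < Dn X := by unfold Dn; positivity

theorem continuous_Dn : Continuous (Dn : (Fin k → E d) → ℝ) := by unfold Dn; fun_prop

theorem exists_eigen (X : Fin k → E d) :
    ∃ (b : OrthonormalBasis (Fin k) ℝ (E k)) (lam : Fin k → ℝ), (∀ i, 0 ≤ lam i) ∧
      ∑ i, lam i = ∑ j, ‖X j‖ ^ 2 ∧
      ∀ z : E k, ‖∑ j, z j • X j‖ ^ 2 = ∑ i, lam i * ⟪b i, z⟫ ^ 2 := by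
  let L : E k →ₗ[ℝ] E d :=
    (Fintype.linearCombination ℝ X) ∘ₗ (WithLp.linearEquiv 2 ℝ (Fin k → ℝ)).toLinearMap
  have hL : ∀ z : E k, L z = ∑ j, z j • X j := by
    intro z; simp [L, Fintype.linearCombination_apply]
  have hT := LinearMap.isSymmetric_adjoint_comp_self L
  have hn : Module.finrank ℝ (E k) = k := by simp
  set T := LinearMap.adjoint L ∘ₗ L with hTdef
  have hTz : ∀ z : E k, ⟪z, T z⟫ = ‖L z‖ ^ 2 := by
    intro z
    rw [hTdef, LinearMap.comp_apply, LinearMap.adjoint_inner_right, real_inner_self_eq_norm_sq]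
  refine ⟨hT.eigenvectorBasis hn, hT.eigenvalues hn, fun i => ?_, ?_, fun z => ?_⟩
  · have := hTz (hT.eigenvectorBasis hn i)
    rw [hT.apply_eigenvectorBasis hn i, real_inner_smul_right, real_inner_self_eq_norm_sq,
      (hT.eigenvectorBasis hn).orthonormal.1 i] at this
    simp only [RCLike.ofReal_real_eq_id, id_eq, one_pow, mul_one] at this
    rw [this]; positivity
  · have h1 := hT.trace_eq_sum_eigenvalues hn
    rw [LinearMap.trace_eq_sum_inner T (EuclideanSpace.basisFun (Fin k) ℝ)] at h1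
    simp only [RCLike.ofReal_real_eq_id, id_eq] at h1
    rw [← h1]
    refine Finset.sum_congr rfl fun j _ => ?_
    rw [hTz, hL]
    congr 2
    simp
  · rw [← hL, ← hTz, ← (hT.eigenvectorBasis hn).sum_inner_mul_inner]
    refine Finset.sum_congr rfl fun i _ => ?_
    rw [← hT (hT.eigenvectorBasis hn i) z, hT.apply_eigenvectorBasis hn i, real_inner_smul_left,
      real_inner_comm]
    simp only [RCLike.ofReal_real_eq_id, id_eq]
    ring

theorem volume_Yset (hd : 0 < d) (X : Fin k → E d) :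
    volume (Prod.mk X ⁻¹' Yset d k) ≤ ENNReal.ofReal (Dn X) := by
  obtain ⟨b, lam, hlam, hsum, hquad⟩ := exists_eigen X
  have hd' : (0 : ℝ) < d := by exact_mod_cast hd
  have hpos : ∀ i, 0 < lam i + d := fun i => by linarith [hlam i]
  -- coordinates in the eigenbasis
  let Φ : (Fin k → ℝ) → (Fin k → ℝ) := fun y => WithLp.ofLp (b.repr (WithLp.toLp 2 y))
  have hΦ : MeasurePreserving Φ :=
    (PiLp.volume_preserving_ofLp (Fin k)).comp
      (b.measurePreserving_repr.comp (PiLp.volume_preserving_toLp (Fin k)))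
  have hΦi : ∀ y i, Φ y i = ⟪b i, WithLp.toLp 2 y⟫ := fun y i => b.repr_apply_apply _ i
  let f : Fin k → ℝ → ℝ≥0∞ := fun i w => ENNReal.ofReal (Real.exp (-(d / (lam i + d)) * w ^ 2))
  have hf : ∀ i, Measurable (f i) := fun i => by unfold f; fun_prop
  have hQ : ∀ y ∈ Prod.mk X ⁻¹' Yset d k, ∑ i, Φ y i ^ 2 / (lam i + d) ≤ 2 := by
    intro y hy
    set z : E k := ∑ i, (Φ y i / (lam i + d)) • b i with hz
    have hzi : ∀ i, ⟪b i, z⟫ = Φ y i / (lam i + d) := fun i => by
      rw [hz]; exact b.orthonormal.inner_right_fintype _ i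
    have h1 := hy z
    have h2 : ∑ j, z j * y j = ∑ i, Φ y i ^ 2 / (lam i + d) := by
      have : ∑ j, z j * y j = ⟪z, WithLp.toLp 2 y⟫ := by
        simp [PiLp.inner_apply, mul_comm]
      rw [this, ← b.sum_inner_mul_inner]
      refine Finset.sum_congr rfl fun i _ => ?_
      rw [real_inner_comm, hzi, ← hΦi]; ring
    have h3 : ∑ j, z j ^ 2 = ∑ i, ⟪b i, z⟫ ^ 2 := by
      rw [b.sum_sq_inner_right, EuclideanSpace.real_norm_sq_eq]
    have h4 : ‖∑ j, z j • X j‖ ^ 2 + d * ∑ j, z j ^ 2 = ∑ i, Φ y i ^ 2 / (lam i + d) := by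
      rw [hquad, h3, Finset.mul_sum, ← Finset.sum_add_distrib]
      refine Finset.sum_congr rfl fun i _ => ?_
      rw [hzi]
      have := hpos i
      field_simp
    dsimp only at h1
    rw [h2, h4] at h1
    have h0 : 0 ≤ ∑ i, Φ y i ^ 2 / (lam i + d) :=
      Finset.sum_nonneg fun i _ => div_nonneg (sq_nonneg _) (hpos i).le
    nlinarith
  have hmY : MeasurableSet (Prod.mk X ⁻¹' Yset d k) :=
    measurable_prodMk_left isClosed_Yset.measurableSet
  have hprod : Measurable fun w : Fin k → ℝ => ∏ i, f i (w i) :=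
    Finset.measurable_prod _ fun i _ => (hf i).comp (measurable_pi_apply i)
  calc volume (Prod.mk X ⁻¹' Yset d k)
      = ∫⁻ y, (Prod.mk X ⁻¹' Yset d k).indicator 1 y := (lintegral_indicator_one hmY).symm
    _ ≤ ∫⁻ y, ENNReal.ofReal (Real.exp (2 * d)) * ∏ i, f i (Φ y i) := by
        refine lintegral_mono fun y => ?_
        by_cases hy : y ∈ Prod.mk X ⁻¹' Yset d k
        · rw [indicator_of_mem hy, Pi.one_apply]
          simp only [f]
          rw [← ENNReal.ofReal_prod_of_nonneg fun i _ => (Real.exp_pos _).le, ← Real.exp_sum,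
            ← ENNReal.ofReal_mul (Real.exp_pos _).le, ← Real.exp_add, ENNReal.one_le_ofReal]
          apply Real.one_le_exp
          have : ∑ i, -(d / (lam i + d)) * Φ y i ^ 2 = -(d * ∑ i, Φ y i ^ 2 / (lam i + d)) := by
            rw [Finset.mul_sum, ← Finset.sum_neg_distrib]
            refine Finset.sum_congr rfl fun i _ => ?_
            ring
          rw [this]
          nlinarith [hQ y hy]
        · rw [indicator_of_notMem hy]; exact zero_le
    _ = ENNReal.ofReal (Real.exp (2 * d)) * ∏ i, ∫⁻ w, f i w := by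
        rw [lintegral_const_mul' _ _ ENNReal.ofReal_ne_top, hΦ.lintegral_comp hprod,
          volume_pi, lintegral_pi_prod volume f hf]
    _ ≤ ENNReal.ofReal (Real.exp (2 * d)) *
          ∏ i, ENNReal.ofReal (2 * Real.exp (lam i / (2 * d))) := by
        gcongr with i
        simp only [f]
        have hb : 0 < (d : ℝ) / (lam i + d) := div_pos hd' (hpos i)
        rw [← ofReal_integral_eq_lintegral_ofReal (integrable_exp_neg_mul_sq hb)
          (Filter.Eventually.of_forall fun t => (Real.exp_pos _).le), integral_gaussian]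
        apply ENNReal.ofReal_le_ofReal
        rw [Real.sqrt_le_iff]
        refine ⟨by positivity, ?_⟩
        rw [mul_pow, ← Real.exp_nat_mul]
        have h1 : Real.pi / (d / (lam i + d)) = Real.pi * (lam i / d + 1) := by
          have := hpos i
          field_simp
        have h2 : ((2 : ℕ) : ℝ) * (lam i / (2 * d)) = lam i / d := by
          push_cast; field_simp
        rw [h1, h2]
        have h3 := Real.add_one_le_exp (lam i / d)
        have h4 : 0 ≤ lam i / d := div_nonneg (hlam i) hd'.le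
        nlinarith [Real.pi_lt_four, Real.pi_pos]
    _ = ENNReal.ofReal (Dn X) := by
        rw [← ENNReal.ofReal_prod_of_nonneg fun i _ => by positivity,
          ← ENNReal.ofReal_mul (Real.exp_pos _).le, Finset.prod_mul_distrib, ← Real.exp_sum,
          ← Finset.sum_div, hsum, Dn]
        simp [mul_assoc]

end Crest.Agent.R322
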